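import Vale.Agent.P088.R2.H961.W.Tid

/-!
# Weighted `L²` methods: localisation (IMS) and Caccioppoli identities

`T(a, b) = ∫ θ (Q₁ a + Q₂ b)² + ∫ θ (P₂ a - P₁ b)²`; for a quadratic partition of unity `χ_α` the
sum `∑ T(χ_α a, χ_α b)` is computed exactly, then estimated.
-/

open MeasureTheory Set Filter
open scoped ContDiff Topology

noncomputable section

namespace Vale.Agent.P088.R2.H960.W

open Vale.Agent.P088.R2.H961.GW

variable {E ι κ : Type*} [NormedAddCommGroup E] [NormedSpace ℝ E] [Fintype ι] [Fintype κ]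

/-! ## Pointwise -/

section pw

variable {σ : Sl E ι} {U : Set E} {θ : E → ℝ} {v W f g h χ : E → ℝ} {z : E} {N : ℕ}

/-- `∑_α χ_α Γ(χ_α, f) = 0`. -/
theorem sum_cG (ok : σ.Ok U θ) {χ : Fin N → E → ℝ} (hχ : ∀ α, Sm U (χ α))
    (h1 : ∀ z ∈ U, ∑ α, χ α z ^ 2 = 1) (f : E → ℝ) (hz : z ∈ U) :
    ∑ α, χ α z * σ.Γ (χ α) f z = 0 := by
  have hd : ∀ i, ∑ α, χ α z * σ.D i (χ α) z = 0 := by
    intro i
    have e1 : σ.D i (fun z => ∑ α, χ α z ^ 2) z = 0 := by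
      rw [D_congr σ ok.op (g := fun _ => (1 : ℝ)) h1 i hz, D_const]
    rw [D_sum σ ok.op _ (f := fun α z => χ α z ^ 2) (fun α _ => (hχ α).pow 2) i hz] at e1
    have e2 : ∑ α, σ.D i (fun z => χ α z ^ 2) z = 2 * ∑ α, χ α z * σ.D i (χ α) z := by
      rw [Finset.mul_sum]
      exact Finset.sum_congr rfl fun α _ => by rw [D_sq σ ok.op (hχ α) i hz]; ring
    linarith
  unfold Sl.Γ
  have e3 : ∑ α, χ α z * ∑ i, ∑ j, σ.s i j z * σ.D i (χ α) z * σ.D j f z =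
      ∑ i, ∑ j, σ.s i j z * σ.D j f z * ∑ α, χ α z * σ.D i (χ α) z := by
    simp only [Finset.mul_sum]
    rw [Finset.sum_comm]
    refine Finset.sum_congr rfl fun i _ => ?_
    rw [Finset.sum_comm]
    refine Finset.sum_congr rfl fun j _ => Finset.sum_congr rfl fun α _ => ?_
    ring
  rw [e3]
  exact Finset.sum_eq_zero fun i _ => Finset.sum_eq_zero fun j _ => by rw [hd i, mul_zero]

/-- `Λ` of a finite sum. -/
theorem L_sum (ok : σ.Ok U θ) {β : Type*} (S : Finset β) {F : β → E → ℝ} (hF : ∀ b, Sm U (F b))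
    (hz : z ∈ U) : σ.Λ (fun z => ∑ b ∈ S, F b z) z = ∑ b ∈ S, σ.Λ (F b) z := by
  classical
  induction S using Finset.induction_on with
  | empty =>
    simp only [Finset.sum_empty]
    have := L_cmul ok 0 (contDiffOn_const (c := (0 : ℝ)) (s := U) (𝕜 := ℝ) (n := ∞)) hz
    simpa using this
  | insert p S hp ih =>
    simp only [Finset.sum_insert hp]
    rw [L_add ok (hF p) (Sm.sum S fun k _ => hF k) hz, ih]

/-- `∑_α χ_α Λ χ_α = -∑_α Γ(χ_α, χ_α)`. -/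
theorem sum_cL (ok : σ.Ok U θ) {χ : Fin N → E → ℝ} (hχ : ∀ α, Sm U (χ α))
    (h1 : ∀ z ∈ U, ∑ α, χ α z ^ 2 = 1) (hz : z ∈ U) :
    ∑ α, χ α z * σ.Λ (χ α) z = -∑ α, σ.Γ (χ α) (χ α) z := by
  have e1 : σ.Λ (fun z => ∑ α, χ α z ^ 2) z = 0 := by
    rw [L_congr ok (g := fun _ => (1 : ℝ)) h1 hz]
    unfold Sl.Λ
    refine Finset.sum_eq_zero fun i _ => Finset.sum_eq_zero fun j _ => ?_
    have e0 : σ.D j (fun _ => (1 : ℝ)) = fun _ => 0 := by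
      funext w; exact D_const σ 1 j w
    rw [e0, D_const]; ring
  rw [L_sum ok _ (F := fun α z => χ α z ^ 2) (fun α => (hχ α).pow 2) hz] at e1
  have e2 : ∀ α, σ.Λ (fun z => χ α z ^ 2) z =
      2 * (χ α z * σ.Λ (χ α) z) + 2 * σ.Γ (χ α) (χ α) z := by
    intro α
    rw [L_congr ok (g := fun z => χ α z * χ α z) (fun z _ => by ring) hz,
      L_mul ok (hχ α) (hχ α) hz]
    ring
  simp only [e2, Finset.sum_add_distrib, ← Finset.mul_sum] at e1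
  linarith

theorem sum_cN (ok : σ.Ok U θ) {χ : Fin N → E → ℝ} (hχ : ∀ α, Sm U (χ α))
    (h1 : ∀ z ∈ U, ∑ α, χ α z ^ 2 = 1) (W f : E → ℝ) (hz : z ∈ U) :
    ∑ α, χ α z * σ.N W (χ α) f z = -((∑ α, σ.Γ (χ α) (χ α) z) * f z) := by
  have e1 := sum_cG ok hχ h1 f hz
  have e2 := sum_cL ok hχ h1 hz
  have e3 : ∑ α, χ α z * σ.Γ W (χ α) z = 0 := by
    rw [← sum_cG ok hχ h1 W hz]
    exact Finset.sum_congr rfl fun α _ => by rw [G_comm ok W]
  have e4 : ∑ α, χ α z * σ.N W (χ α) f z = 2 * ∑ α, χ α z * σ.Γ (χ α) f z +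
      (∑ α, χ α z * σ.Λ (χ α) z) * f z + 2 * (∑ α, χ α z * σ.Γ W (χ α) z) * f z := by
    simp only [Finset.mul_sum, Finset.sum_mul, ← Finset.sum_add_distrib]
    refine Finset.sum_congr rfl fun α _ => ?_
    unfold Sl.N
    ring
  rw [e4, e1, e2, e3]
  ring

/-- Positive semidefinite. -/
def Psd (σ : Sl E ι) (U : Set E) : Prop :=
  ∀ z ∈ U, ∀ x : ι → ℝ, 0 ≤ ∑ i, ∑ j, σ.s i j z * x i * x j

theorem Psd.G (p : Psd σ U) (f : E → ℝ) (hz : z ∈ U) : 0 ≤ σ.Γ f f z :=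
  p z hz fun i => σ.D i f z

/-- Cauchy–Schwarz. -/
theorem Psd.cs (p : Psd σ U) (ok : σ.Ok U θ) (f g : E → ℝ) (hz : z ∈ U) :
    σ.Γ f g z ^ 2 ≤ σ.Γ f f z * σ.Γ g g z := by
  have key : ∀ t : ℝ, 0 ≤ σ.Γ f f z * (t * t) + 2 * σ.Γ f g z * t + σ.Γ g g z := by
    intro t
    have h := p z hz fun i => t * σ.D i f z + σ.D i g z
    have e : σ.Γ f f z * (t * t) + 2 * σ.Γ f g z * t + σ.Γ g g z =
        ∑ i, ∑ j, σ.s i j z * (t * σ.D i f z + σ.D i g z) * (t * σ.D j f z + σ.D j g z) := by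
      have e2 : 2 * σ.Γ f g z * t = σ.Γ f g z * t + σ.Γ g f z * t := by
        rw [G_comm ok g f]; ring
      rw [e2]
      unfold Sl.Γ
      simp only [Finset.sum_mul, ← Finset.sum_add_distrib]
      exact Finset.sum_congr rfl fun i _ => Finset.sum_congr rfl fun j _ => by ring
    rw [e]; exact h
  have := discrim_le_zero key
  unfold discrim at this
  nlinarith

/-- The commutator term is of lower order. -/
theorem Psd.N_sq (p : Psd σ U) (ok : σ.Ok U θ) (W χ f : E → ℝ) (hz : z ∈ U) :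
    σ.N W χ f z ^ 2 ≤ 12 * (σ.Γ χ χ z * σ.Γ f f z) +
      (3 * σ.Λ χ z ^ 2 + 12 * (σ.F W z * σ.Γ χ χ z)) * f z ^ 2 := by
  have h1 := p.cs ok χ f hz
  have h2 := p.cs ok W χ hz
  have h3 : σ.Γ W χ z ^ 2 * f z ^ 2 ≤ (σ.Γ W W z * σ.Γ χ χ z) * f z ^ 2 :=
    mul_le_mul_of_nonneg_right h2 (sq_nonneg _)
  unfold Sl.N Sl.F
  nlinarith [sq_nonneg (2 * σ.Γ χ f z - σ.Λ χ z * f z),
    sq_nonneg (2 * σ.Γ χ f z - 2 * σ.Γ W χ z * f z),
    sq_nonneg (σ.Λ χ z * f z - 2 * σ.Γ W χ z * f z)]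

/-- Smoothness of the commutator term. -/
theorem sN (ok : σ.Ok U θ) (hW : Sm U W) (hχ : Sm U χ) (hf : Sm U f) : Sm U (σ.N W χ f) :=
  ((contDiffOn_const.mul (ok.sG hχ hf)).add ((ok.sL hχ).mul hf)).add
    ((contDiffOn_const.mul (ok.sG hW hχ)).mul hf)

theorem tN (ok : σ.Ok U θ) (hW : Sm U W) (hχ : Sm U χ) (hf : Te U f) : Te U (σ.N W χ f) :=
  (((ok.tG hχ hf).cmul ok.op 2).add ok.op (hf.mul_left ok.op (ok.sL hχ))).add ok.op
    (hf.mul_left ok.op (contDiffOn_const.mul (ok.sG hW hχ)))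

end pw

/-- The error density of one cut-off function. -/
def er (σ : Sl E ι) (τ : Sl E κ) (W χ a b : E → ℝ) (z : E) : ℝ :=
  24 * (σ.Γ χ χ z * (σ.Γ a a z + σ.Γ b b z) + τ.Γ χ χ z * (τ.Γ a a z + τ.Γ b b z)) +
    (6 * (σ.Λ χ z ^ 2 + τ.Λ χ z ^ 2) + 24 * (σ.F W z * σ.Γ χ χ z + τ.F W z * τ.Γ χ χ z)) *
      (a z ^ 2 + b z ^ 2)

/-- The commutator part of `Q₁ a + Q₂ b`. -/
def nq (σ : Sl E ι) (τ : Sl E κ) (W χ a b : E → ℝ) (z : E) : ℝ :=
  σ.N (fun z => -W z) χ a z + τ.N (fun z => -W z) χ b z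

/-- The commutator part of `P₂ a - P₁ b`. -/
def np (σ : Sl E ι) (τ : Sl E κ) (W χ a b : E → ℝ) (z : E) : ℝ :=
  τ.N W χ a z - σ.N W χ b z

section pw2

variable {σ : Sl E ι} {τ : Sl E κ} {U : Set E} {θ : E → ℝ} {v W f g h χ a b : E → ℝ} {z : E}

theorem F_neg (ok : σ.Ok U θ) (hW : Sm U W) (hz : z ∈ U) :
    σ.F (fun z => -W z) z = σ.F W z := by
  unfold Sl.F
  rw [G_neg ok _ hW hz, G_comm ok (fun z => -W z) W, G_neg ok _ hW hz, neg_neg]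

theorem nn_le (p : Psd σ U) (q : Psd τ U) (ok : σ.Ok U θ) (ot : τ.Ok U θ) (hW : Sm U W)
    (χ a b : E → ℝ) (hz : z ∈ U) :
    nq σ τ W χ a b z ^ 2 + np σ τ W χ a b z ^ 2 ≤ er σ τ W χ a b z := by
  have e1 := p.N_sq ok (fun z => -W z) χ a hz
  have e2 := q.N_sq ot (fun z => -W z) χ b hz
  have e3 := q.N_sq ot W χ a hz
  have e4 := p.N_sq ok W χ b hz
  rw [F_neg ok hW hz] at e1
  rw [F_neg ot hW hz] at e2
  unfold nq np er
  nlinarith [sq_nonneg (σ.N (fun z => -W z) χ a z - τ.N (fun z => -W z) χ b z),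
    sq_nonneg (τ.N W χ a z + σ.N W χ b z)]

theorem er_nonneg (p : Psd σ U) (q : Psd τ U) (W χ a b : E → ℝ) (hz : z ∈ U) :
    0 ≤ er σ τ W χ a b z := by
  have h1 := p.G χ hz
  have h2 := q.G χ hz
  have h3 := p.G a hz
  have h4 := q.G a hz
  have h5 := p.G b hz
  have h6 := q.G b hz
  have h7 : 0 ≤ σ.F W z := p.G W hz
  have h8 : 0 ≤ τ.F W z := q.G W hz
  unfold er
  positivity

theorem ter (ok : σ.Ok U θ) (ot : τ.Ok U θ) (hW : Sm U W) (hχ : Sm U χ) (ha : Te U a)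
    (hb : Te U b) : Te U (er σ τ W χ a b) := by
  have hU := ok.op
  have t1 := ((ok.tG ha.sm ha).add hU (ok.tG hb.sm hb)).mul_left hU (ok.sG hχ hχ)
  have t2 := ((ot.tG ha.sm ha).add hU (ot.tG hb.sm hb)).mul_left hU (ot.sG hχ hχ)
  have t3 := (ha.sq hU).add hU (hb.sq hU)
  have s1 : Sm U fun z => 6 * (σ.Λ χ z ^ 2 + τ.Λ χ z ^ 2) +
      24 * (σ.F W z * σ.Γ χ χ z + τ.F W z * τ.Γ χ χ z) :=
    (contDiffOn_const.mul (((ok.sL hχ).pow 2).add ((ot.sL hχ).pow 2))).add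
      (contDiffOn_const.mul (((ok.sF hW).mul (ok.sG hχ hχ)).add ((ot.sF hW).mul (ot.sG hχ hχ))))
  exact ((t1.add hU t2).cmul hU 24).add hU (t3.mul_left hU s1)

end pw2

/-! ## Integrals -/

variable [MeasureSpace E] [FiniteDimensional ℝ E] [BorelSpace E]
  [(volume : Measure E).IsAddHaarMeasure]

section integral

variable {σ : Sl E ι} {τ : Sl E κ} {U : Set E} {θ : E → ℝ} {v v₁ v₂ W f g h a b χ : E → ℝ}
  {N : ℕ}

/-- Integration of the square of a sum. -/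
theorem In_sq_add (hU : IsOpen U) (hθ : Sm U θ) (hf : Te U f) (hg : Te U g) :
    In U θ (fun z => (f z + g z) ^ 2) =
      In U θ (fun z => f z ^ 2) + 2 * In U θ (fun z => f z * g z) + In U θ (fun z => g z ^ 2) := by
  have t1 := hf.sq hU
  have t2 := hg.sq hU
  have t3 : Te U fun z => f z * g z := hf.mul_right hU hg.sm
  rw [← In_cmul, ← In_add hU hθ t1 (t3.cmul hU 2), ← In_add hU hθ (t1.add hU (t3.cmul hU 2)) t2]
  exact In_congr hU fun z _ => by ring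

/-- Localisation, exact. -/
theorem ims (ok : σ.Ok U θ) (ot : τ.Ok U θ) (hv₁ : Sm U v₁) (hv₂ : Sm U v₂) (hW : Sm U W)
    {χ : Fin N → E → ℝ} (hχ : ∀ α, Sm U (χ α)) (h1 : ∀ z ∈ U, ∑ α, χ α z ^ 2 = 1)
    (ha : Te U a) (hb : Te U b) :
    ∑ α, TT σ τ U θ v₁ v₂ W (fun z => χ α z * a z) (fun z => χ α z * b z) =
      TT σ τ U θ v₁ v₂ W a b -
      2 * In U θ (fun z => (σ.Q v₁ W a z + τ.Q v₂ W b z) *
        ((∑ α, σ.Γ (χ α) (χ α) z) * a z + (∑ α, τ.Γ (χ α) (χ α) z) * b z)) -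
      2 * In U θ (fun z => (τ.P v₂ W a z - σ.P v₁ W b z) *
        ((∑ α, τ.Γ (χ α) (χ α) z) * a z - (∑ α, σ.Γ (χ α) (χ α) z) * b z)) +
      ∑ α, (In U θ (fun z => nq σ τ W (χ α) a b z ^ 2) +
        In U θ (fun z => np σ τ W (χ α) a b z ^ 2)) := by
  have hU := ok.op
  have hW' : Sm U fun z => -W z := hW.neg
  have tA : Te U fun z => σ.Q v₁ W a z + τ.Q v₂ W b z :=
    (ok.tQ hv₁ hW ha).add hU (ot.tQ hv₂ hW hb)
  have tB : Te U fun z => τ.P v₂ W a z - σ.P v₁ W b z :=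
    (ot.tP hv₂ hW ha).sub hU (ok.tP hv₁ hW hb)
  have tn : ∀ α, Te U (nq σ τ W (χ α) a b) := fun α =>
    (tN ok hW' (hχ α) ha).add hU (tN ot hW' (hχ α) hb)
  have tm : ∀ α, Te U (np σ τ W (χ α) a b) := fun α =>
    (tN ot hW (hχ α) ha).sub hU (tN ok hW (hχ α) hb)
  have e1 : ∀ α, In U θ (fun z => (σ.Q v₁ W (fun z => χ α z * a z) z +
      τ.Q v₂ W (fun z => χ α z * b z) z) ^ 2) =
      In U θ (fun z => (χ α z * (σ.Q v₁ W a z + τ.Q v₂ W b z)) ^ 2) +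
        2 * In U θ (fun z => (σ.Q v₁ W a z + τ.Q v₂ W b z) * (χ α z * nq σ τ W (χ α) a b z)) +
        In U θ (fun z => nq σ τ W (χ α) a b z ^ 2) := by
    intro α
    have e0 : In U θ (fun z => (σ.Q v₁ W a z + τ.Q v₂ W b z) * (χ α z * nq σ τ W (χ α) a b z)) =
        In U θ (fun z => (χ α z * (σ.Q v₁ W a z + τ.Q v₂ W b z)) * nq σ τ W (χ α) a b z) :=
      In_congr hU fun z _ => by ring
    rw [e0, ← In_sq_add hU ok.ts (tA.mul_left hU (hχ α)) (tn α)]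
    refine In_congr hU fun z hz => ?_
    rw [Q_mul ok v₁ hW (hχ α) ha.sm hz, Q_mul ot v₂ hW (hχ α) hb.sm hz]
    unfold nq
    ring
  have e2 : ∀ α, In U θ (fun z => (τ.P v₂ W (fun z => χ α z * a z) z -
      σ.P v₁ W (fun z => χ α z * b z) z) ^ 2) =
      In U θ (fun z => (χ α z * (τ.P v₂ W a z - σ.P v₁ W b z)) ^ 2) +
        2 * In U θ (fun z => (τ.P v₂ W a z - σ.P v₁ W b z) * (χ α z * np σ τ W (χ α) a b z)) +
        In U θ (fun z => np σ τ W (χ α) a b z ^ 2) := by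
    intro α
    have e0 : In U θ (fun z => (τ.P v₂ W a z - σ.P v₁ W b z) * (χ α z * np σ τ W (χ α) a b z)) =
        In U θ (fun z => (χ α z * (τ.P v₂ W a z - σ.P v₁ W b z)) * np σ τ W (χ α) a b z) :=
      In_congr hU fun z _ => by ring
    rw [e0, ← In_sq_add hU ok.ts (tB.mul_left hU (hχ α)) (tm α)]
    refine In_congr hU fun z hz => ?_
    rw [P_mul ot v₂ W (hχ α) ha.sm hz, P_mul ok v₁ W (hχ α) hb.sm hz]
    unfold np
    ring
  have s1 : ∑ α, In U θ (fun z => (χ α z * (σ.Q v₁ W a z + τ.Q v₂ W b z)) ^ 2) =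
      In U θ (fun z => (σ.Q v₁ W a z + τ.Q v₂ W b z) ^ 2) := by
    rw [← In_sum hU ok.ts _ fun α _ => (tA.mul_left hU (hχ α)).sq hU]
    refine In_congr hU fun z hz => ?_
    simp only [mul_pow]
    rw [← Finset.sum_mul, h1 z hz, one_mul]
  have s2 : ∑ α, In U θ (fun z => (χ α z * (τ.P v₂ W a z - σ.P v₁ W b z)) ^ 2) =
      In U θ (fun z => (τ.P v₂ W a z - σ.P v₁ W b z) ^ 2) := by
    rw [← In_sum hU ok.ts _ fun α _ => (tB.mul_left hU (hχ α)).sq hU]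
    refine In_congr hU fun z hz => ?_
    simp only [mul_pow]
    rw [← Finset.sum_mul, h1 z hz, one_mul]
  have s3 : ∑ α, In U θ (fun z => (σ.Q v₁ W a z + τ.Q v₂ W b z) *
        (χ α z * nq σ τ W (χ α) a b z)) =
      -In U θ (fun z => (σ.Q v₁ W a z + τ.Q v₂ W b z) *
        ((∑ α, σ.Γ (χ α) (χ α) z) * a z + (∑ α, τ.Γ (χ α) (χ α) z) * b z)) := by
    rw [← In_sum hU ok.ts _ fun α _ => tA.mul_right hU ((hχ α).mul (tn α).sm), ← In_neg]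
    refine In_congr hU fun z hz => ?_
    rw [← Finset.mul_sum]
    have e := sum_cN ok hχ h1 (fun z => -W z) a hz
    have e' := sum_cN ot hχ h1 (fun z => -W z) b hz
    have e'' : ∑ α, χ α z * nq σ τ W (χ α) a b z =
        ∑ α, χ α z * σ.N (fun z => -W z) (χ α) a z +
          ∑ α, χ α z * τ.N (fun z => -W z) (χ α) b z := by
      rw [← Finset.sum_add_distrib]
      exact Finset.sum_congr rfl fun α _ => by unfold nq; ring
    rw [e'', e, e']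
    ring
  have s4 : ∑ α, In U θ (fun z => (τ.P v₂ W a z - σ.P v₁ W b z) *
        (χ α z * np σ τ W (χ α) a b z)) =
      -In U θ (fun z => (τ.P v₂ W a z - σ.P v₁ W b z) *
        ((∑ α, τ.Γ (χ α) (χ α) z) * a z - (∑ α, σ.Γ (χ α) (χ α) z) * b z)) := by
    rw [← In_sum hU ok.ts _ fun α _ => tB.mul_right hU ((hχ α).mul (tm α).sm), ← In_neg]
    refine In_congr hU fun z hz => ?_
    rw [← Finset.mul_sum]
    have e := sum_cN ot hχ h1 W a hz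
    have e' := sum_cN ok hχ h1 W b hz
    have e'' : ∑ α, χ α z * np σ τ W (χ α) a b z =
        ∑ α, χ α z * τ.N W (χ α) a z - ∑ α, χ α z * σ.N W (χ α) b z := by
      rw [← Finset.sum_sub_distrib]
      exact Finset.sum_congr rfl fun α _ => by unfold np; ring
    rw [e'', e, e']
    ring
  unfold TT
  simp only [e1, e2, Finset.sum_add_distrib, ← Finset.mul_sum]
  rw [s1, s2, s3, s4]
  ring

/-- Localisation, the upper bound of the sum. -/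
theorem ims_le (ok : σ.Ok U θ) (ot : τ.Ok U θ) (p : Psd σ U) (q : Psd τ U) (hv₁ : Sm U v₁)
    (hv₂ : Sm U v₂) (hW : Sm U W) {χ : Fin N → E → ℝ} (hχ : ∀ α, Sm U (χ α))
    (h1 : ∀ z ∈ U, ∑ α, χ α z ^ 2 = 1) (ha : Te U a) (hb : Te U b) {ε : ℝ} (hε : 0 < ε) :
    ∑ α, TT σ τ U θ v₁ v₂ W (fun z => χ α z * a z) (fun z => χ α z * b z) ≤
      (1 + ε) * TT σ τ U θ v₁ v₂ W a b +
      1 / ε * In U θ (fun z => ((∑ α, σ.Γ (χ α) (χ α) z) ^ 2 + (∑ α, τ.Γ (χ α) (χ α) z) ^ 2) *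
        (a z ^ 2 + b z ^ 2)) +
      ∑ α, In U θ (er σ τ W (χ α) a b) := by
  have hU := ok.op
  have hW' : Sm U fun z => -W z := hW.neg
  have tA : Te U fun z => σ.Q v₁ W a z + τ.Q v₂ W b z :=
    (ok.tQ hv₁ hW ha).add hU (ot.tQ hv₂ hW hb)
  have tB : Te U fun z => τ.P v₂ W a z - σ.P v₁ W b z :=
    (ot.tP hv₂ hW ha).sub hU (ok.tP hv₁ hW hb)
  have sG1 : Sm U fun z => ∑ α, σ.Γ (χ α) (χ α) z := Sm.sum _ fun α _ => ok.sG (hχ α) (hχ α)
  have sG2 : Sm U fun z => ∑ α, τ.Γ (χ α) (χ α) z := Sm.sum _ fun α _ => ot.sG (hχ α) (hχ α)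
  have tX : Te U fun z => (∑ α, σ.Γ (χ α) (χ α) z) * a z + (∑ α, τ.Γ (χ α) (χ α) z) * b z :=
    (ha.mul_left hU sG1).add hU (hb.mul_left hU sG2)
  have tY : Te U fun z => (∑ α, τ.Γ (χ α) (χ α) z) * a z - (∑ α, σ.Γ (χ α) (χ α) z) * b z :=
    (ha.mul_left hU sG2).sub hU (hb.mul_left hU sG1)
  have tn : ∀ α, Te U (nq σ τ W (χ α) a b) := fun α =>
    (tN ok hW' (hχ α) ha).add hU (tN ot hW' (hχ α) hb)
  have tm : ∀ α, Te U (np σ τ W (χ α) a b) := fun α =>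
    (tN ot hW (hχ α) ha).sub hU (tN ok hW (hχ α) hb)
  rw [ims ok ot hv₁ hv₂ hW hχ h1 ha hb]
  have k1 : ∀ {A X : E → ℝ}, Te U A → Te U X →
      -(2 * In U θ (fun z => A z * X z)) ≤ ε * In U θ (fun z => A z ^ 2) +
        1 / ε * In U θ (fun z => X z ^ 2) := by
    intro A X hA hX
    have t := ((hA.sq hU).cmul hU ε).add hU ((hX.sq hU).cmul hU (1 / ε))
    have t' : Te U fun z => (-2) * (A z * X z) := (hA.mul_right hU hX.sm).cmul hU (-2)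
    have h := In_mono hU ok.tp ok.ts t' t (fun z _ => by
      have e : ε * A z ^ 2 + 1 / ε * X z ^ 2 - -2 * (A z * X z) =
          ε * (A z + 1 / ε * X z) ^ 2 := by
        field_simp; ring
      have : 0 ≤ ε * (A z + 1 / ε * X z) ^ 2 := by positivity
      linarith)
    rw [In_cmul, In_add hU ok.ts ((hA.sq hU).cmul hU ε) ((hX.sq hU).cmul hU (1 / ε)), In_cmul,
      In_cmul] at h
    linarith
  have k2 := k1 tA tX
  have k3 := k1 tB tY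
  have k4 : In U θ (fun z => ((∑ α, σ.Γ (χ α) (χ α) z) * a z +
        (∑ α, τ.Γ (χ α) (χ α) z) * b z) ^ 2) +
      In U θ (fun z => ((∑ α, τ.Γ (χ α) (χ α) z) * a z - (∑ α, σ.Γ (χ α) (χ α) z) * b z) ^ 2) =
      In U θ (fun z => ((∑ α, σ.Γ (χ α) (χ α) z) ^ 2 + (∑ α, τ.Γ (χ α) (χ α) z) ^ 2) *
        (a z ^ 2 + b z ^ 2)) := by
    rw [← In_add hU ok.ts (tX.sq hU) (tY.sq hU)]
    exact In_congr hU fun z _ => by ring
  have k5 : ∑ α, (In U θ (fun z => nq σ τ W (χ α) a b z ^ 2) +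
        In U θ (fun z => np σ τ W (χ α) a b z ^ 2)) ≤ ∑ α, In U θ (er σ τ W (χ α) a b) := by
    refine Finset.sum_le_sum fun α _ => ?_
    rw [← In_add hU ok.ts ((tn α).sq hU) ((tm α).sq hU)]
    exact In_mono hU ok.tp ok.ts (((tn α).sq hU).add hU ((tm α).sq hU))
      (ter ok ot hW (hχ α) ha hb) fun z hz => nn_le p q ok ot hW (χ α) a b hz
  have k6 : 1 / ε * In U θ (fun z => ((∑ α, σ.Γ (χ α) (χ α) z) * a z +
        (∑ α, τ.Γ (χ α) (χ α) z) * b z) ^ 2) +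
      1 / ε * In U θ (fun z => ((∑ α, τ.Γ (χ α) (χ α) z) * a z -
        (∑ α, σ.Γ (χ α) (χ α) z) * b z) ^ 2) =
      1 / ε * In U θ (fun z => ((∑ α, σ.Γ (χ α) (χ α) z) ^ 2 +
        (∑ α, τ.Γ (χ α) (χ α) z) ^ 2) * (a z ^ 2 + b z ^ 2)) := by
    rw [← mul_add, k4]
  have k7 : (1 + ε) * TT σ τ U θ v₁ v₂ W a b = TT σ τ U θ v₁ v₂ W a b +
      (ε * In U θ (fun z => (σ.Q v₁ W a z + τ.Q v₂ W b z) ^ 2) +
        ε * In U θ (fun z => (τ.P v₂ W a z - σ.P v₁ W b z) ^ 2)) := by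
    unfold TT; ring
  rw [k7]
  linarith

/-- One cut-off function, upper bound. -/
theorem cut_le (ok : σ.Ok U θ) (ot : τ.Ok U θ) (p : Psd σ U) (q : Psd τ U) (hv₁ : Sm U v₁)
    (hv₂ : Sm U v₂) (hW : Sm U W) (hχ : Sm U χ) (ha : Te U a) (hb : Te U b) {ε : ℝ}
    (hε : 0 < ε) :
    TT σ τ U θ v₁ v₂ W (fun z => χ z * a z) (fun z => χ z * b z) ≤
      (1 + ε) * In U θ (fun z => χ z ^ 2 * ((σ.Q v₁ W a z + τ.Q v₂ W b z) ^ 2 +
        (τ.P v₂ W a z - σ.P v₁ W b z) ^ 2)) +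
      (1 + 1 / ε) * In U θ (er σ τ W χ a b) := by
  have hU := ok.op
  have tA : Te U fun z => σ.Q v₁ W a z + τ.Q v₂ W b z :=
    (ok.tQ hv₁ hW ha).add hU (ot.tQ hv₂ hW hb)
  have tB : Te U fun z => τ.P v₂ W a z - σ.P v₁ W b z :=
    (ot.tP hv₂ hW ha).sub hU (ok.tP hv₁ hW hb)
  have ha' : Te U fun z => χ z * a z := ha.mul_left hU hχ
  have hb' : Te U fun z => χ z * b z := hb.mul_left hU hχ
  have tA' : Te U fun z => σ.Q v₁ W (fun z => χ z * a z) z + τ.Q v₂ W (fun z => χ z * b z) z :=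
    (ok.tQ hv₁ hW ha').add hU (ot.tQ hv₂ hW hb')
  have tB' : Te U fun z => τ.P v₂ W (fun z => χ z * a z) z - σ.P v₁ W (fun z => χ z * b z) z :=
    (ot.tP hv₂ hW ha').sub hU (ok.tP hv₁ hW hb')
  have t1 : Te U fun z => χ z ^ 2 * ((σ.Q v₁ W a z + τ.Q v₂ W b z) ^ 2 +
        (τ.P v₂ W a z - σ.P v₁ W b z) ^ 2) :=
    ((tA.sq hU).add hU (tB.sq hU)).mul_left hU (hχ.pow 2)
  have t2 := ter ok ot hW hχ ha hb
  unfold TT
  rw [← In_cmul, ← In_cmul, ← In_add hU ok.ts (tA'.sq hU) (tB'.sq hU),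
    ← In_add hU ok.ts (t1.cmul hU _) (t2.cmul hU _)]
  refine In_mono hU ok.tp ok.ts ((tA'.sq hU).add hU (tB'.sq hU))
    ((t1.cmul hU _).add hU (t2.cmul hU _)) fun z hz => ?_
  rw [Q_mul ok v₁ hW hχ ha.sm hz, Q_mul ot v₂ hW hχ hb.sm hz, P_mul ot v₂ W hχ ha.sm hz,
    P_mul ok v₁ W hχ hb.sm hz]
  have h1 := nn_le p q ok ot hW χ a b hz
  have h2 : ∀ x y : ℝ, (x + y) ^ 2 ≤ (1 + ε) * x ^ 2 + (1 + 1 / ε) * y ^ 2 := by
    intro x y
    have e : (1 + ε) * x ^ 2 + (1 + 1 / ε) * y ^ 2 - (x + y) ^ 2 = 1 / ε * (ε * x - y) ^ 2 := by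
      field_simp; ring
    have : 0 ≤ 1 / ε * (ε * x - y) ^ 2 := by positivity
    linarith
  have h3 := h2 (χ z * (σ.Q v₁ W a z + τ.Q v₂ W b z)) (nq σ τ W χ a b z)
  have h4 := h2 (χ z * (τ.P v₂ W a z - σ.P v₁ W b z)) (np σ τ W χ a b z)
  have h5 : (1 + 1 / ε) * (nq σ τ W χ a b z ^ 2 + np σ τ W χ a b z ^ 2) ≤
      (1 + 1 / ε) * er σ τ W χ a b z := mul_le_mul_of_nonneg_left h1 (by positivity)
  have e1 : χ z * σ.Q v₁ W a z + σ.N (fun z => -W z) χ a z +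
      (χ z * τ.Q v₂ W b z + τ.N (fun z => -W z) χ b z) =
      χ z * (σ.Q v₁ W a z + τ.Q v₂ W b z) + nq σ τ W χ a b z := by unfold nq; ring
  have e2 : χ z * τ.P v₂ W a z + τ.N W χ a z - (χ z * σ.P v₁ W b z + σ.N W χ b z) =
      χ z * (τ.P v₂ W a z - σ.P v₁ W b z) + np σ τ W χ a b z := by unfold np; ring
  rw [e1, e2]
  nlinarith

/-- One cut-off function, lower bound. -/
theorem cut_ge (ok : σ.Ok U θ) (ot : τ.Ok U θ) (p : Psd σ U) (q : Psd τ U) (hv₁ : Sm U v₁)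
    (hv₂ : Sm U v₂) (hW : Sm U W) (hχ : Sm U χ) (ha : Te U a) (hb : Te U b) {ε : ℝ}
    (hε : 0 < ε) :
    In U θ (fun z => χ z ^ 2 * ((σ.Q v₁ W a z + τ.Q v₂ W b z) ^ 2 +
        (τ.P v₂ W a z - σ.P v₁ W b z) ^ 2)) ≤
      (1 + ε) * TT σ τ U θ v₁ v₂ W (fun z => χ z * a z) (fun z => χ z * b z) +
      (1 + 1 / ε) * In U θ (er σ τ W χ a b) := by
  have hU := ok.op
  have tA : Te U fun z => σ.Q v₁ W a z + τ.Q v₂ W b z :=
    (ok.tQ hv₁ hW ha).add hU (ot.tQ hv₂ hW hb)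
  have tB : Te U fun z => τ.P v₂ W a z - σ.P v₁ W b z :=
    (ot.tP hv₂ hW ha).sub hU (ok.tP hv₁ hW hb)
  have ha' : Te U fun z => χ z * a z := ha.mul_left hU hχ
  have hb' : Te U fun z => χ z * b z := hb.mul_left hU hχ
  have tA' : Te U fun z => σ.Q v₁ W (fun z => χ z * a z) z + τ.Q v₂ W (fun z => χ z * b z) z :=
    (ok.tQ hv₁ hW ha').add hU (ot.tQ hv₂ hW hb')
  have tB' : Te U fun z => τ.P v₂ W (fun z => χ z * a z) z - σ.P v₁ W (fun z => χ z * b z) z :=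
    (ot.tP hv₂ hW ha').sub hU (ok.tP hv₁ hW hb')
  have t1 : Te U fun z => χ z ^ 2 * ((σ.Q v₁ W a z + τ.Q v₂ W b z) ^ 2 +
        (τ.P v₂ W a z - σ.P v₁ W b z) ^ 2) :=
    ((tA.sq hU).add hU (tB.sq hU)).mul_left hU (hχ.pow 2)
  have t2 := ter ok ot hW hχ ha hb
  unfold TT
  rw [← In_add hU ok.ts (tA'.sq hU) (tB'.sq hU), ← In_cmul, ← In_cmul,
    ← In_add hU ok.ts (((tA'.sq hU).add hU (tB'.sq hU)).cmul hU _) (t2.cmul hU _)]
  refine In_mono hU ok.tp ok.ts t1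
    ((((tA'.sq hU).add hU (tB'.sq hU)).cmul hU _).add hU (t2.cmul hU _)) fun z hz => ?_
  rw [Q_mul ok v₁ hW hχ ha.sm hz, Q_mul ot v₂ hW hχ hb.sm hz, P_mul ot v₂ W hχ ha.sm hz,
    P_mul ok v₁ W hχ hb.sm hz]
  have h1 := nn_le p q ok ot hW χ a b hz
  have h2 : ∀ x y : ℝ, x ^ 2 ≤ (1 + ε) * (x + y) ^ 2 + (1 + 1 / ε) * y ^ 2 := by
    intro x y
    have e : (1 + ε) * (x + y) ^ 2 + (1 + 1 / ε) * y ^ 2 - x ^ 2 =
        1 / ε * (ε * x + (1 + ε) * y) ^ 2 := by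
      field_simp; ring
    have : 0 ≤ 1 / ε * (ε * x + (1 + ε) * y) ^ 2 := by positivity
    linarith
  have h3 := h2 (χ z * (σ.Q v₁ W a z + τ.Q v₂ W b z)) (nq σ τ W χ a b z)
  have h4 := h2 (χ z * (τ.P v₂ W a z - σ.P v₁ W b z)) (np σ τ W χ a b z)
  have h5 : (1 + 1 / ε) * (nq σ τ W χ a b z ^ 2 + np σ τ W χ a b z ^ 2) ≤
      (1 + 1 / ε) * er σ τ W χ a b z := mul_le_mul_of_nonneg_left h1 (by positivity)
  have e1 : χ z * σ.Q v₁ W a z + σ.N (fun z => -W z) χ a z +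
      (χ z * τ.Q v₂ W b z + τ.N (fun z => -W z) χ b z) =
      χ z * (σ.Q v₁ W a z + τ.Q v₂ W b z) + nq σ τ W χ a b z := by unfold nq; ring
  have e2 : χ z * τ.P v₂ W a z + τ.N W χ a z - (χ z * σ.P v₁ W b z + σ.N W χ b z) =
      χ z * (τ.P v₂ W a z - σ.P v₁ W b z) + np σ τ W χ a b z := by unfold np; ring
  rw [e1, e2]
  nlinarith

/-! ### Caccioppoli -/

omit [MeasureSpace E] [FiniteDimensional ℝ E] [BorelSpace E] [(volume : Measure E).IsAddHaarMeasure] in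
theorem G_cut (ok : σ.Ok U θ) (hχ : Sm U χ) (ha : Sm U a) {z : E} (hz : z ∈ U) :
    σ.Γ (fun z => χ z * a z) (fun z => χ z * a z) z =
      χ z ^ 2 * σ.Γ a a z + 2 * (χ z * a z * σ.Γ χ a z) + a z ^ 2 * σ.Γ χ χ z := by
  rw [G_mul ok _ hχ ha hz, G_comm ok _ a, G_mul ok a hχ ha hz,
    G_comm ok (fun z => χ z * a z) χ, G_mul ok χ hχ ha hz, G_comm ok a χ]
  ring

/-- Caccioppoli, exact. -/
theorem cac_P (ok : σ.Ok U θ) (hv : Sm U v) (hW : Sm U W) (hχ : Sm U χ) (ha : Te U a) :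
    In U θ (σ.Γ (fun z => χ z * a z) fun z => χ z * a z) =
      -In U θ (fun z => χ z ^ 2 * (a z * σ.P v W a z)) +
      In U θ (fun z => (σ.Γ χ χ z + χ z ^ 2 * (v z + σ.F W z) - 2 * (χ z * σ.Γ W χ z)) *
        a z ^ 2) := by
  have hU := ok.op
  have sa := ha.sm
  have tc : Te U fun z => χ z ^ 2 * a z := ha.mul_left hU (hχ.pow 2)
  have ta := ha.sq hU
  have e1 := In_L ok sa tc
  have e2 := In_fK ok hW ha (hχ.pow 2)
  have sP := ok.sP hv hW sa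
  have t0 := ok.tG ((hχ.mul sa)) (ha.mul_left hU hχ)
  have tP : Te U fun z => χ z ^ 2 * (a z * σ.P v W a z) :=
    (ha.mul_right hU sP).mul_left hU (hχ.pow 2)
  have t1 : Te U fun z => σ.Λ a z * (χ z ^ 2 * a z) := tc.mul_left hU (ok.sL sa)
  have t2 : Te U fun z => χ z ^ 2 * a z * σ.K W a z := tc.mul_right hU (ok.sK hW sa)
  have s3 : Sm U fun z => χ z ^ 2 * (v z + σ.F W z) := (hχ.pow 2).mul (hv.add (ok.sF hW))
  have t3 : Te U fun z => χ z ^ 2 * (v z + σ.F W z) * a z ^ 2 := ta.mul_left hU s3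
  have t4 : Te U fun z => σ.Γ χ χ z * a z ^ 2 := ta.mul_left hU (ok.sG hχ hχ)
  have t5 : Te U fun z => a z ^ 2 * σ.Γ W (fun z => χ z ^ 2) z :=
    ta.mul_right hU (ok.sG hW (hχ.pow 2))
  have e3 : In U θ (fun z => χ z ^ 2 * (a z * σ.P v W a z)) =
      In U θ (fun z => σ.Λ a z * (χ z ^ 2 * a z)) + In U θ (fun z => χ z ^ 2 * a z * σ.K W a z) +
        In U θ (fun z => χ z ^ 2 * (v z + σ.F W z) * a z ^ 2) := by
    rw [← In_add hU ok.ts t1 t2, ← In_add hU ok.ts (t1.add hU t2) t3]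
    refine In_congr hU fun z _ => ?_
    unfold Sl.P
    ring
  have e4 : In U θ (σ.Γ a fun z => χ z ^ 2 * a z) =
      In U θ (σ.Γ (fun z => χ z * a z) fun z => χ z * a z) -
        In U θ (fun z => σ.Γ χ χ z * a z ^ 2) := by
    rw [← In_sub hU ok.ts t0 t4]
    refine In_congr hU fun z hz => ?_
    rw [G_cut ok hχ sa hz, G_mul ok a (hχ.pow 2) sa hz, G_sq ok a hχ hz, G_comm ok a χ]
    ring
  have e5 : In U θ (fun z => (σ.Γ χ χ z + χ z ^ 2 * (v z + σ.F W z) - 2 * (χ z * σ.Γ W χ z)) *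
        a z ^ 2) = In U θ (fun z => σ.Γ χ χ z * a z ^ 2) +
      In U θ (fun z => χ z ^ 2 * (v z + σ.F W z) * a z ^ 2) -
      In U θ (fun z => a z ^ 2 * σ.Γ W (fun z => χ z ^ 2) z) := by
    rw [← In_add hU ok.ts t4 t3, ← In_sub hU ok.ts (t4.add hU t3) t5]
    refine In_congr hU fun z hz => ?_
    rw [G_sq ok W hχ hz]
    ring
  rw [e3, e5, e1, e2, e4]
  ring

/-- Caccioppoli, exact, for `Q`. -/
theorem cac_Q (ok : σ.Ok U θ) (hv : Sm U v) (hW : Sm U W) (hχ : Sm U χ) (ha : Te U a) :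
    In U θ (σ.Γ (fun z => χ z * a z) fun z => χ z * a z) =
      -In U θ (fun z => χ z ^ 2 * (a z * σ.Q v W a z)) +
      In U θ (fun z => (σ.Γ χ χ z + χ z ^ 2 * (v z + σ.F W z) + 2 * (χ z * σ.Γ W χ z)) *
        a z ^ 2) := by
  have hU := ok.op
  have e := cac_P ok hv hW.neg hχ ha
  have hW' : Sm U fun z => -W z := hW.neg
  have e1 : In U θ (fun z => χ z ^ 2 * (a z * σ.P v (-W) a z)) =
      In U θ (fun z => χ z ^ 2 * (a z * σ.Q v W a z)) := by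
    refine In_congr hU fun z hz => ?_
    have h1 : σ.Γ (-W) a z = -σ.Γ W a z := by
      rw [G_comm ok (-W) a, G_comm ok W a]; exact G_neg ok a hW hz
    have h2 : σ.Λ (-W) z = -σ.Λ W z := by
      have e0 : (fun z => -1 * W z) = -W := by
        funext z; simp
      have := L_cmul ok (-1) hW hz
      rw [e0] at this
      linarith
    have h3 : σ.F (-W) z = σ.F W z := F_neg ok hW hz
    unfold Sl.P Sl.Q Sl.K
    rw [h1, h2, h3]
    ring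
  have e2 : In U θ (fun z => (σ.Γ χ χ z + χ z ^ 2 * (v z + σ.F (-W) z) -
        2 * (χ z * σ.Γ (-W) χ z)) * a z ^ 2) =
      In U θ (fun z => (σ.Γ χ χ z + χ z ^ 2 * (v z + σ.F W z) + 2 * (χ z * σ.Γ W χ z)) *
        a z ^ 2) := by
    refine In_congr hU fun z hz => ?_
    have h1 : σ.Γ (-W) χ z = -σ.Γ W χ z := by
      rw [G_comm ok (-W) χ, G_comm ok W χ]; exact G_neg ok χ hW hz
    have h3 : σ.F (-W) z = σ.F W z := F_neg ok hW hz
    rw [h1, h3]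
    ring
  have e3 : (fun z => -W z) = -W := rfl
  simp only [e3] at e
  rw [e, e1, e2]

/-- Caccioppoli inequality, `w` a positive weight. -/
theorem cac_le (ok : σ.Ok U θ) (p : Psd σ U) (hv : Sm U v) (hW : Sm U W) (hχ : Sm U χ)
    (ha : Te U a) {w : E → ℝ} (hw : Sm U w) (hw0 : ∀ z ∈ U, 0 < w z) :
    2 * In U θ (σ.Γ (fun z => χ z * a z) fun z => χ z * a z) ≤
      In U θ (fun z => (w z)⁻¹ * (χ z * σ.P v W a z) ^ 2) +
      In U θ (fun z => (w z * χ z ^ 2 + 4 * σ.Γ χ χ z + 2 * χ z ^ 2 * v z +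
        4 * χ z ^ 2 * σ.F W z) * a z ^ 2) := by
  have hU := ok.op
  have sa := ha.sm
  have ta := ha.sq hU
  have sP := ok.sP hv hW sa
  have tP := ok.tP hv hW ha
  have hwi : Sm U fun z => (w z)⁻¹ := hw.inv fun z hz => (hw0 z hz).ne'
  have t1 : Te U fun z => χ z ^ 2 * (a z * σ.P v W a z) :=
    (ha.mul_right hU sP).mul_left hU (hχ.pow 2)
  have t2 : Te U fun z => (σ.Γ χ χ z + χ z ^ 2 * (v z + σ.F W z) - 2 * (χ z * σ.Γ W χ z)) *
      a z ^ 2 := ta.mul_left hU (((ok.sG hχ hχ).add ((hχ.pow 2).mul (hv.add (ok.sF hW)))).sub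
        (contDiffOn_const.mul (hχ.mul (ok.sG hW hχ))))
  have t3 : Te U fun z => (w z)⁻¹ * (χ z * σ.P v W a z) ^ 2 :=
    ((tP.mul_left hU hχ).sq hU).mul_left hU hwi
  have t4 : Te U fun z => (w z * χ z ^ 2 + 4 * σ.Γ χ χ z + 2 * χ z ^ 2 * v z +
      4 * χ z ^ 2 * σ.F W z) * a z ^ 2 := ta.mul_left hU
        ((((hw.mul (hχ.pow 2)).add (contDiffOn_const.mul (ok.sG hχ hχ))).add
          ((contDiffOn_const.mul (hχ.pow 2)).mul hv)).add
          ((contDiffOn_const.mul (hχ.pow 2)).mul (ok.sF hW)))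
  rw [cac_P ok hv hW hχ ha, ← In_neg, ← In_add hU ok.ts (t1.neg hU) t2, ← In_cmul,
    ← In_add hU ok.ts t3 t4]
  refine In_mono hU ok.tp ok.ts (((t1.neg hU).add hU t2).cmul hU 2) (t3.add hU t4) fun z hz => ?_
  have hw1 := hw0 z hz
  have h1 := p.cs ok W χ hz
  have h2 := p.G χ hz
  have h3 : 0 ≤ σ.F W z := p.G W hz
  have h4 : σ.Γ W χ z ^ 2 ≤ σ.F W z * σ.Γ χ χ z := h1
  have h5 : -(4 * (χ z * σ.Γ W χ z)) ≤ 2 * χ z ^ 2 * σ.F W z + 2 * σ.Γ χ χ z := by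
    have k1 : (χ z * σ.Γ W χ z) ^ 2 ≤ (χ z ^ 2 * σ.F W z) * σ.Γ χ χ z := by
      rw [mul_pow]
      have := mul_le_mul_of_nonneg_left h4 (sq_nonneg (χ z))
      linarith
    have k2 : 0 ≤ χ z ^ 2 * σ.F W z := by positivity
    have k3 : |χ z * σ.Γ W χ z| ≤ (χ z ^ 2 * σ.F W z + σ.Γ χ χ z) / 2 := by
      apply abs_le_of_sq_le_sq _ (by positivity)
      nlinarith [sq_nonneg (χ z ^ 2 * σ.F W z - σ.Γ χ χ z)]
    have := (abs_le.1 k3).1
    linarith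
  have h6 : -(2 * (χ z ^ 2 * (a z * σ.P v W a z))) ≤
      (w z)⁻¹ * (χ z * σ.P v W a z) ^ 2 + w z * χ z ^ 2 * a z ^ 2 := by
    have e : (w z)⁻¹ * (χ z * σ.P v W a z) ^ 2 + w z * χ z ^ 2 * a z ^ 2 +
        2 * (χ z ^ 2 * (a z * σ.P v W a z)) =
        (w z)⁻¹ * (χ z * σ.P v W a z + w z * χ z * a z) ^ 2 := by
      field_simp; ring
    have : 0 ≤ (w z)⁻¹ * (χ z * σ.P v W a z + w z * χ z * a z) ^ 2 := by positivity
    linarith
  nlinarith [mul_le_mul_of_nonneg_right h5 (sq_nonneg (a z))]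

end integral

end Vale.Agent.P088.R2.H960.W
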