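import Vale.Agent.P088.R2.H960.W.Weyl
import Vale.Agent.P088.R2.H960.W.Ims

/-!
# Weighted `L²` methods: localisation of the commutator form

`T(a, b) = ∑ ∫ θ (P_j a_k)² + ∫ θ cd(a, b)`, and for a quadratic partition of unity
`∑ cd(χ_α a, χ_α b) = cd(a, b) + 8 ∑ hc(χ_α)`, pointwise.
-/

open MeasureTheory Set Filter
open scoped ContDiff Topology

noncomputable section

namespace Vale.Agent.P088.R2.H960.W

open Vale.Agent.P088.R2.H961.GW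

variable {E ι κ : Type*} [NormedAddCommGroup E] [NormedSpace ℝ E] [Fintype ι] [Fintype κ]

/-- The commutator form. -/
def cd (σ : Sl E ι) (τ : Sl E κ) (v₁ v₂ W a b : E → ℝ) (z : E) : ℝ :=
  8 * (σ.Hd W a z + 2 * Md σ τ W a b z + τ.Hd W b z) + 4 * sk σ τ W a b z +
    (σ.zz v₁ W z * a z ^ 2 + τ.zz v₂ W z * b z ^ 2 + zm σ τ W z * (a z * b z))

/-- The Hessian form on `(u, D χ)`. -/
def Hx (σ : Sl E ι) (W : E → ℝ) (u : ι → E → ℝ) (χ : E → ℝ) (z : E) : ℝ :=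
  ∑ i, ∑ l, σ.Hc W i l z * u i z * σ.D l χ z

/-- The mixed Hessian form on `(u, w)`. -/
def mx (σ : Sl E ι) (τ : Sl E κ) (W : E → ℝ) (u : ι → E → ℝ) (w : κ → E → ℝ) (z : E) : ℝ :=
  ∑ k, ∑ l, τ.s k l z * (∑ i, ∑ j, σ.s i j z * σ.D i (τ.D k W) z * u j z) * w l z

/-- The localisation error. -/
def hc (σ : Sl E ι) (τ : Sl E κ) (W χ a b : E → ℝ) (z : E) : ℝ :=
  a z ^ 2 * σ.Hs W χ χ z + 2 * (a z * b z * M3 σ τ W χ χ z) + b z ^ 2 * τ.Hs W χ χ z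

/-- The cross terms. -/
def xc (σ : Sl E ι) (τ : Sl E κ) (W χ a b : E → ℝ) (z : E) : ℝ :=
  a z * Hx σ W (XX σ W a) χ z + b z * Hx τ W (XX τ W b) χ z +
    b z * mx σ τ W (XX σ W a) (fun l => τ.D l χ) z + a z * mx σ τ W (fun i => σ.D i χ) (XX τ W b) z

section pw

variable {σ : Sl E ι} {τ : Sl E κ} {U : Set E} {θ : E → ℝ} {v v₁ v₂ W f g h a b χ : E → ℝ}
  {z : E} {N : ℕ}

theorem XX_mul (ok : σ.Ok U θ) (W : E → ℝ) (hχ : Sm U χ) (ha : Sm U a) (i : ι) (hz : z ∈ U) :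
    XX σ W (fun z => χ z * a z) i z = χ z * XX σ W a i z - a z * σ.D i χ z := by
  unfold XX
  rw [D_mul σ ok.op hχ ha i hz]
  ring

theorem YY_mul (ok : σ.Ok U θ) (W : E → ℝ) (hχ : Sm U χ) (ha : Sm U a) (i : ι) (hz : z ∈ U) :
    YY σ W (fun z => χ z * a z) i z = χ z * YY σ W a i z + a z * σ.D i χ z := by
  unfold YY
  rw [D_mul σ ok.op hχ ha i hz]
  ring

/-- The Hessian form of a product. -/
theorem Hd_mul (ok : σ.Ok U θ) (hW : Sm U W) (hχ : Sm U χ) (ha : Sm U a) (hz : z ∈ U) :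
    σ.Hd W (fun z => χ z * a z) z = χ z ^ 2 * σ.Hd W a z -
      2 * (χ z * (a z * Hx σ W (XX σ W a) χ z)) + a z ^ 2 * σ.Hs W χ χ z := by
  have sχa : Sm U fun z => χ z * a z := hχ.mul ha
  rw [Hd_eq ok hW sχa hz, Hd_eq ok hW ha hz, Hs_eq ok hW hχ hχ hz]
  have e0 : ∑ i, ∑ l, σ.Hc W i l z * σ.D i χ z * XX σ W a l z = Hx σ W (XX σ W a) χ z := by
    unfold Hx
    rw [Finset.sum_comm]
    refine Finset.sum_congr rfl fun i _ => Finset.sum_congr rfl fun l _ => ?_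
    rw [Hc_symm ok l i]; ring
  have e1 : 2 * (χ z * (a z * Hx σ W (XX σ W a) χ z)) =
      χ z * a z * (∑ i, ∑ l, σ.Hc W i l z * XX σ W a i z * σ.D l χ z) +
      χ z * a z * (∑ i, ∑ l, σ.Hc W i l z * σ.D i χ z * XX σ W a l z) := by
    rw [e0]; unfold Hx; ring
  rw [e1]
  simp only [Finset.mul_sum, ← Finset.sum_add_distrib, ← Finset.sum_sub_distrib]
  refine Finset.sum_congr rfl fun i _ => Finset.sum_congr rfl fun l _ => ?_
  have h1 := XX_mul ok W hχ ha i hz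
  have h2 := XX_mul ok W hχ ha l hz
  unfold XX at h1 h2 ⊢
  rw [h1, h2]
  ring

theorem Md_mx (σ : Sl E ι) (τ : Sl E κ) (W a b : E → ℝ) (z : E) :
    Md σ τ W a b z = mx σ τ W (XX σ W a) (XX τ W b) z := Md_eq σ τ W a b z

theorem M3_mx (σ : Sl E ι) (τ : Sl E κ) (W f g : E → ℝ) (z : E) :
    M3 σ τ W f g z = mx σ τ W (fun i => σ.D i f) (fun l => τ.D l g) z := rfl

/-- The mixed form is bilinear. -/
theorem mx_bil (σ : Sl E ι) (τ : Sl E κ) (W : E → ℝ) {u u' p : ι → E → ℝ} {w w' q : κ → E → ℝ}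
    {x y t : ℝ} (hu : ∀ i, u' i z = t * u i z - x * p i z)
    (hw : ∀ l, w' l z = t * w l z - y * q l z) :
    mx σ τ W u' w' z = t ^ 2 * mx σ τ W u w z - t * (y * mx σ τ W u q z) -
      t * (x * mx σ τ W p w z) + x * y * mx σ τ W p q z := by
  unfold mx
  simp only [Finset.mul_sum, Finset.sum_mul, ← Finset.sum_add_distrib, ← Finset.sum_sub_distrib]
  refine Finset.sum_congr rfl fun k _ => Finset.sum_congr rfl fun l _ =>
    Finset.sum_congr rfl fun i _ => Finset.sum_congr rfl fun j _ => ?_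
  rw [hu, hw]
  ring

theorem Md_mul (ok : σ.Ok U θ) (ot : τ.Ok U θ) (W : E → ℝ) (hχ : Sm U χ) (ha : Sm U a)
    (hb : Sm U b) (hz : z ∈ U) :
    Md σ τ W (fun z => χ z * a z) (fun z => χ z * b z) z = χ z ^ 2 * Md σ τ W a b z -
      χ z * (b z * mx σ τ W (XX σ W a) (fun l => τ.D l χ) z) -
      χ z * (a z * mx σ τ W (fun i => σ.D i χ) (XX τ W b) z) +
      a z * b z * M3 σ τ W χ χ z := by
  rw [Md_mx, Md_mx, M3_mx]
  exact mx_bil σ τ W (fun i => XX_mul ok W hχ ha i hz) (fun l => XX_mul ot W hχ hb l hz)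

theorem sk_mul (ok : σ.Ok U θ) (ot : τ.Ok U θ) (W : E → ℝ) (hχ : Sm U χ) (ha : Sm U a)
    (hb : Sm U b) (hz : z ∈ U) :
    sk σ τ W (fun z => χ z * a z) (fun z => χ z * b z) z = χ z ^ 2 * sk σ τ W a b z := by
  unfold sk
  rw [G_mul ot _ hχ hb hz, G_mul ok _ hχ hb hz, G_mul ot _ hχ ha hz, G_mul ok _ hχ ha hz]
  ring

/-- **The commutator form of a product.** -/
theorem cd_mul (ok : σ.Ok U θ) (ot : τ.Ok U θ) (v₁ v₂ : E → ℝ) (hW : Sm U W) (hχ : Sm U χ)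
    (ha : Sm U a) (hb : Sm U b) (hz : z ∈ U) :
    cd σ τ v₁ v₂ W (fun z => χ z * a z) (fun z => χ z * b z) z =
      χ z ^ 2 * cd σ τ v₁ v₂ W a b z - 16 * (χ z * xc σ τ W χ a b z) +
        8 * hc σ τ W χ a b z := by
  unfold cd xc hc
  rw [Hd_mul ok hW hχ ha hz, Hd_mul ot hW hχ hb hz, Md_mul ok ot W hχ ha hb hz,
    sk_mul ok ot W hχ ha hb hz]
  ring

/-! ### Partitions of unity -/

theorem sum_cD (ok : σ.Ok U θ) {χ : Fin N → E → ℝ} (hχ : ∀ α, Sm U (χ α))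
    (h1 : ∀ z ∈ U, ∑ α, χ α z ^ 2 = 1) (i : ι) (hz : z ∈ U) :
    ∑ α, χ α z * σ.D i (χ α) z = 0 := by
  have e1 : σ.D i (fun z => ∑ α, χ α z ^ 2) z = 0 := by
    rw [D_congr σ ok.op (g := fun _ => (1 : ℝ)) h1 i hz, D_const]
  rw [D_sum σ ok.op _ (f := fun α z => χ α z ^ 2) (fun α _ => (hχ α).pow 2) i hz] at e1
  have e2 : ∑ α, σ.D i (fun z => χ α z ^ 2) z = 2 * ∑ α, χ α z * σ.D i (χ α) z := by
    rw [Finset.mul_sum]
    exact Finset.sum_congr rfl fun α _ => by rw [D_sq σ ok.op (hχ α) i hz]; ring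
  linarith

theorem sum_Hx (ok : σ.Ok U θ) {χ : Fin N → E → ℝ} (hχ : ∀ α, Sm U (χ α))
    (h1 : ∀ z ∈ U, ∑ α, χ α z ^ 2 = 1) (W : E → ℝ) (u : ι → E → ℝ) (hz : z ∈ U) :
    ∑ α, χ α z * Hx σ W u (χ α) z = 0 := by
  unfold Hx
  have e : ∑ α, χ α z * ∑ i, ∑ l, σ.Hc W i l z * u i z * σ.D l (χ α) z =
      ∑ i, ∑ l, σ.Hc W i l z * u i z * ∑ α, χ α z * σ.D l (χ α) z := by
    simp only [Finset.mul_sum]
    rw [Finset.sum_comm]
    refine Finset.sum_congr rfl fun i _ => ?_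
    rw [Finset.sum_comm]
    exact Finset.sum_congr rfl fun l _ => Finset.sum_congr rfl fun α _ => by ring
  rw [e]
  exact Finset.sum_eq_zero fun i _ => Finset.sum_eq_zero fun l _ => by
    rw [sum_cD ok hχ h1 l hz, mul_zero]

theorem sum_mx1 (ot : τ.Ok U θ) {χ : Fin N → E → ℝ} (hχ : ∀ α, Sm U (χ α))
    (h1 : ∀ z ∈ U, ∑ α, χ α z ^ 2 = 1) (σ : Sl E ι) (W : E → ℝ) (u : ι → E → ℝ) (hz : z ∈ U) :
    ∑ α, χ α z * mx σ τ W u (fun l => τ.D l (χ α)) z = 0 := by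
  unfold mx
  have e : ∑ α, χ α z * ∑ k, ∑ l, τ.s k l z *
      (∑ i, ∑ j, σ.s i j z * σ.D i (τ.D k W) z * u j z) * τ.D l (χ α) z =
      ∑ k, ∑ l, τ.s k l z * (∑ i, ∑ j, σ.s i j z * σ.D i (τ.D k W) z * u j z) *
        ∑ α, χ α z * τ.D l (χ α) z := by
    rw [Finset.sum_congr rfl fun α _ => Finset.mul_sum _ _ _, Finset.sum_comm]
    refine Finset.sum_congr rfl fun k _ => ?_
    rw [Finset.sum_congr rfl fun α _ => Finset.mul_sum _ _ _, Finset.sum_comm]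
    refine Finset.sum_congr rfl fun l _ => ?_
    generalize τ.s k l z * (∑ i, ∑ j, σ.s i j z * σ.D i (τ.D k W) z * u j z) = q
    rw [Finset.mul_sum]
    exact Finset.sum_congr rfl fun α _ => by ring
  rw [e]
  exact Finset.sum_eq_zero fun k _ => Finset.sum_eq_zero fun l _ => by
    rw [sum_cD ot hχ h1 l hz, mul_zero]

theorem sum_mx2 (ok : σ.Ok U θ) {χ : Fin N → E → ℝ} (hχ : ∀ α, Sm U (χ α))
    (h1 : ∀ z ∈ U, ∑ α, χ α z ^ 2 = 1) (τ : Sl E κ) (W : E → ℝ) (w : κ → E → ℝ) (hz : z ∈ U) :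
    ∑ α, χ α z * mx σ τ W (fun i => σ.D i (χ α)) w z = 0 := by
  unfold mx
  have e : ∑ α, χ α z * ∑ k, ∑ l, τ.s k l z *
      (∑ i, ∑ j, σ.s i j z * σ.D i (τ.D k W) z * σ.D j (χ α) z) * w l z =
      ∑ k, ∑ l, τ.s k l z * (∑ i, ∑ j, σ.s i j z * σ.D i (τ.D k W) z *
        ∑ α, χ α z * σ.D j (χ α) z) * w l z := by
    rw [Finset.sum_congr rfl fun α _ => Finset.mul_sum _ _ _, Finset.sum_comm]
    refine Finset.sum_congr rfl fun k _ => ?_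
    rw [Finset.sum_congr rfl fun α _ => Finset.mul_sum _ _ _, Finset.sum_comm]
    refine Finset.sum_congr rfl fun l _ => ?_
    have e2 : ∑ i, ∑ j, σ.s i j z * σ.D i (τ.D k W) z * ∑ α, χ α z * σ.D j (χ α) z =
        ∑ α, χ α z * ∑ i, ∑ j, σ.s i j z * σ.D i (τ.D k W) z * σ.D j (χ α) z := by
      simp only [Finset.mul_sum]
      rw [Finset.sum_congr rfl fun i _ => Finset.sum_comm, Finset.sum_comm]
      exact Finset.sum_congr rfl fun α _ => Finset.sum_congr rfl fun i _ =>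
        Finset.sum_congr rfl fun j _ => by ring
    rw [e2, Finset.mul_sum, Finset.sum_mul]
    exact Finset.sum_congr rfl fun α _ => by ring
  rw [e]
  refine Finset.sum_eq_zero fun k _ => Finset.sum_eq_zero fun l _ => ?_
  have e3 : ∑ i, ∑ j, σ.s i j z * σ.D i (τ.D k W) z * ∑ α, χ α z * σ.D j (χ α) z = 0 :=
    Finset.sum_eq_zero fun i _ => Finset.sum_eq_zero fun j _ => by
      rw [sum_cD ok hχ h1 j hz, mul_zero]
  rw [e3]
  ring

/-- **Localisation of the commutator form, pointwise and exact.** -/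
theorem cd_sum (ok : σ.Ok U θ) (ot : τ.Ok U θ) (v₁ v₂ : E → ℝ) (hW : Sm U W)
    {χ : Fin N → E → ℝ} (hχ : ∀ α, Sm U (χ α)) (h1 : ∀ z ∈ U, ∑ α, χ α z ^ 2 = 1)
    (ha : Sm U a) (hb : Sm U b) (hz : z ∈ U) :
    ∑ α, cd σ τ v₁ v₂ W (fun z => χ α z * a z) (fun z => χ α z * b z) z =
      cd σ τ v₁ v₂ W a b z + 8 * ∑ α, hc σ τ W (χ α) a b z := by
  have e1 : ∀ α, cd σ τ v₁ v₂ W (fun z => χ α z * a z) (fun z => χ α z * b z) z =
      χ α z ^ 2 * cd σ τ v₁ v₂ W a b z - 16 * (χ α z * xc σ τ W (χ α) a b z) +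
        8 * hc σ τ W (χ α) a b z := fun α => cd_mul ok ot v₁ v₂ hW (hχ α) ha hb hz
  have e2 : ∑ α, χ α z * xc σ τ W (χ α) a b z = 0 := by
    have e3 : ∑ α, χ α z * xc σ τ W (χ α) a b z =
        a z * (∑ α, χ α z * Hx σ W (XX σ W a) (χ α) z) +
        b z * (∑ α, χ α z * Hx τ W (XX τ W b) (χ α) z) +
        b z * (∑ α, χ α z * mx σ τ W (XX σ W a) (fun l => τ.D l (χ α)) z) +
        a z * (∑ α, χ α z * mx σ τ W (fun i => σ.D i (χ α)) (XX τ W b) z) := by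
      simp only [Finset.mul_sum, ← Finset.sum_add_distrib]
      exact Finset.sum_congr rfl fun α _ => by unfold xc; ring
    rw [e3, sum_Hx ok hχ h1 W _ hz, sum_Hx ot hχ h1 W _ hz, sum_mx1 ot hχ h1 σ W _ hz,
      sum_mx2 ok hχ h1 τ W _ hz]
    ring
  simp only [e1, Finset.sum_add_distrib, Finset.sum_sub_distrib, ← Finset.mul_sum,
    ← Finset.sum_mul]
  rw [e2, h1 z hz]
  ring

/-! ### Test functions -/

theorem tMd (ok : σ.Ok U θ) (ot : τ.Ok U θ) (hW : Sm U W) (ha : Te U a) (hb : Te U b) :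
    Te U (Md σ τ W a b) := by
  have hU := ok.op
  have t1 : Te U (M3 σ τ W a b) := tM3' ok ot hW ha hb.sm
  have t2 : Te U fun z => a z * M3 σ τ W W b z := ha.mul_right hU (sM3 ok ot hW hW hb.sm)
  have t3 : Te U fun z => b z * M3 σ τ W a W z := hb.mul_right hU (sM3 ok ot hW ha.sm hW)
  have t4 : Te U fun z => a z * b z * M3 σ τ W W W z :=
    (ha.mul_right hU hb.sm).mul_right hU (sM3 ok ot hW hW hW)
  exact ((t1.sub hU t2).sub hU t3).add hU t4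

theorem tsk (ok : σ.Ok U θ) (ot : τ.Ok U θ) (hW : Sm U W) (ha : Te U a) (hb : Te U b) :
    Te U (sk σ τ W a b) := by
  have hU := ok.op
  have sL1 := ok.sL hW
  have sL2 := ot.sL hW
  exact (ha.mul_right hU ((ot.sG sL1 hb.sm).sub (ok.sG sL2 hb.sm))).sub hU
    (hb.mul_right hU ((ot.sG sL1 ha.sm).sub (ok.sG sL2 ha.sm)))

theorem tcd (ok : σ.Ok U θ) (ot : τ.Ok U θ) (hv₁ : Sm U v₁) (hv₂ : Sm U v₂) (hW : Sm U W)
    (ha : Te U a) (hb : Te U b) : Te U (cd σ τ v₁ v₂ W a b) := by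
  have hU := ok.op
  have t1 := ok.tHd hW ha
  have t2 := tMd ok ot hW ha hb
  have t3 := ot.tHd hW hb
  have t4 := tsk ok ot hW ha hb
  have t5 : Te U fun z => σ.zz v₁ W z * a z ^ 2 := (ha.sq hU).mul_left hU (ok.szz hv₁ hW)
  have t6 : Te U fun z => τ.zz v₂ W z * b z ^ 2 := (hb.sq hU).mul_left hU (ot.szz hv₂ hW)
  have t7 : Te U fun z => zm σ τ W z * (a z * b z) :=
    (ha.mul_right hU hb.sm).mul_left hU (szm ok ot hW)
  exact (((((t1.add hU (t2.cmul hU 2)).add hU t3).cmul hU 8).add hU (t4.cmul hU 4)).add hU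
    ((t5.add hU t6).add hU t7))

theorem thc (ok : σ.Ok U θ) (ot : τ.Ok U θ) (hW : Sm U W) (hχ : Sm U χ) (ha : Te U a)
    (hb : Te U b) : Te U (hc σ τ W χ a b) := by
  have hU := ok.op
  have s1 : Sm U (σ.Hs W χ χ) := contDiffOn_const.mul (((ok.sG hχ (ok.sG hW hχ)).add
    (ok.sG hχ (ok.sG hW hχ))).sub (ok.sG hW (ok.sG hχ hχ)))
  have s2 : Sm U (τ.Hs W χ χ) := contDiffOn_const.mul (((ot.sG hχ (ot.sG hW hχ)).add
    (ot.sG hχ (ot.sG hW hχ))).sub (ot.sG hW (ot.sG hχ hχ)))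
  have t1 : Te U fun z => a z ^ 2 * σ.Hs W χ χ z := (ha.sq hU).mul_right hU s1
  have t2 : Te U fun z => a z * b z * M3 σ τ W χ χ z :=
    (ha.mul_right hU hb.sm).mul_right hU (sM3 ok ot hW hχ hχ)
  have t3 : Te U fun z => b z ^ 2 * τ.Hs W χ χ z := (hb.sq hU).mul_right hU s2
  exact (t1.add hU (t2.cmul hU 2)).add hU t3

end pw

/-! ## Integrals -/

variable [MeasureSpace E] [FiniteDimensional ℝ E] [BorelSpace E]
  [(volume : Measure E).IsAddHaarMeasure]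

section integral

variable {σ : Sl E ι} {τ : Sl E κ} {U : Set E} {θ : E → ℝ} {v v₁ v₂ W f g h a b χ : E → ℝ}
  {N : ℕ}

/-- The sum of the squares. -/
def SQ (σ : Sl E ι) (τ : Sl E κ) (U : Set E) (θ v₁ v₂ W a b : E → ℝ) : ℝ :=
  In U θ (fun z => σ.P v₁ W a z ^ 2) + In U θ (fun z => τ.P v₂ W b z ^ 2) +
    In U θ (fun z => τ.P v₂ W a z ^ 2) + In U θ (fun z => σ.P v₁ W b z ^ 2)

/-- `T = ∑ ∫ (P_j a_k)² + ∫ cd`. -/
theorem T_cd (ok : σ.Ok U θ) (ot : τ.Ok U θ) (c : Cm σ τ U) (hv₁ : Sm U v₁) (hv₂ : Sm U v₂)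
    (h₁ : ∀ z ∈ U, ∀ k, τ.D k v₁ z = 0) (h₂ : ∀ z ∈ U, ∀ i, σ.D i v₂ z = 0) (hW : Sm U W)
    (ha : Te U a) (hb : Te U b) :
    TT σ τ U θ v₁ v₂ W a b = SQ σ τ U θ v₁ v₂ W a b + In U θ (cd σ τ v₁ v₂ W a b) := by
  have hU := ok.op
  have t1 := ok.tHd hW ha
  have t2 := tMd ok ot hW ha hb
  have t3 := ot.tHd hW hb
  have t4 := tsk ok ot hW ha hb
  have t5 : Te U fun z => σ.zz v₁ W z * a z ^ 2 := (ha.sq hU).mul_left hU (ok.szz hv₁ hW)
  have t6 : Te U fun z => τ.zz v₂ W z * b z ^ 2 := (hb.sq hU).mul_left hU (ot.szz hv₂ hW)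
  have t7 : Te U fun z => zm σ τ W z * (a z * b z) :=
    (ha.mul_right hU hb.sm).mul_left hU (szm ok ot hW)
  have e : In U θ (cd σ τ v₁ v₂ W a b) =
      8 * (In U θ (σ.Hd W a) + 2 * In U θ (Md σ τ W a b) + In U θ (τ.Hd W b)) +
      4 * In U θ (sk σ τ W a b) +
      (In U θ (fun z => σ.zz v₁ W z * a z ^ 2) + In U θ (fun z => τ.zz v₂ W z * b z ^ 2) +
        In U θ (fun z => zm σ τ W z * (a z * b z))) := by
    unfold cd
    rw [In_add hU ok.ts (((((t1.add hU (t2.cmul hU 2)).add hU t3).cmul hU 8).add hU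
      (t4.cmul hU 4))) ((t5.add hU t6).add hU t7),
      In_add hU ok.ts ((((t1.add hU (t2.cmul hU 2)).add hU t3).cmul hU 8)) (t4.cmul hU 4),
      In_cmul, In_cmul, In_add hU ok.ts (t1.add hU (t2.cmul hU 2)) t3,
      In_add hU ok.ts t1 (t2.cmul hU 2), In_cmul, In_add hU ok.ts (t5.add hU t6) t7,
      In_add hU ok.ts t5 t6]
  rw [tid ok ot c hv₁ hv₂ h₁ h₂ hW ha hb, e]
  unfold SQ
  ring

/-- Localisation of the commutator form, integrated. -/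
theorem In_cd (ok : σ.Ok U θ) (ot : τ.Ok U θ) (hv₁ : Sm U v₁) (hv₂ : Sm U v₂) (hW : Sm U W)
    {χ : Fin N → E → ℝ} (hχ : ∀ α, Sm U (χ α)) (h1 : ∀ z ∈ U, ∑ α, χ α z ^ 2 = 1)
    (ha : Te U a) (hb : Te U b) :
    In U θ (cd σ τ v₁ v₂ W a b) =
      (∑ α, In U θ (cd σ τ v₁ v₂ W (fun z => χ α z * a z) fun z => χ α z * b z)) -
        8 * ∑ α, In U θ (hc σ τ W (χ α) a b) := by
  have hU := ok.op
  have t1 : ∀ α ∈ (Finset.univ : Finset (Fin N)),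
      Te U (cd σ τ v₁ v₂ W (fun z => χ α z * a z) fun z => χ α z * b z) := fun α _ =>
    tcd ok ot hv₁ hv₂ hW (ha.mul_left hU (hχ α)) (hb.mul_left hU (hχ α))
  have t2 : ∀ α ∈ (Finset.univ : Finset (Fin N)), Te U (hc σ τ W (χ α) a b) := fun α _ =>
    thc ok ot hW (hχ α) ha hb
  rw [← In_sum hU ok.ts _ t1, ← In_sum hU ok.ts _ t2, ← In_cmul,
    ← In_sub hU ok.ts (Te.sum hU _ t1) ((Te.sum hU _ t2).cmul hU 8)]
  refine In_congr hU fun z hz => ?_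
  rw [cd_sum ok ot v₁ v₂ hW hχ h1 ha.sm hb.sm hz]
  ring

/-- `T`, localised in the commutator form. -/
theorem T_loc (ok : σ.Ok U θ) (ot : τ.Ok U θ) (c : Cm σ τ U) (hv₁ : Sm U v₁) (hv₂ : Sm U v₂)
    (h₁ : ∀ z ∈ U, ∀ k, τ.D k v₁ z = 0) (h₂ : ∀ z ∈ U, ∀ i, σ.D i v₂ z = 0) (hW : Sm U W)
    {χ : Fin N → E → ℝ} (hχ : ∀ α, Sm U (χ α)) (h1 : ∀ z ∈ U, ∑ α, χ α z ^ 2 = 1)
    (ha : Te U a) (hb : Te U b) :
    TT σ τ U θ v₁ v₂ W a b = SQ σ τ U θ v₁ v₂ W a b +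
      (∑ α, (TT σ τ U θ v₁ v₂ W (fun z => χ α z * a z) (fun z => χ α z * b z) -
        SQ σ τ U θ v₁ v₂ W (fun z => χ α z * a z) (fun z => χ α z * b z))) -
        8 * ∑ α, In U θ (hc σ τ W (χ α) a b) := by
  have hU := ok.op
  have e : ∀ α, TT σ τ U θ v₁ v₂ W (fun z => χ α z * a z) (fun z => χ α z * b z) -
        SQ σ τ U θ v₁ v₂ W (fun z => χ α z * a z) (fun z => χ α z * b z) =
      In U θ (cd σ τ v₁ v₂ W (fun z => χ α z * a z) fun z => χ α z * b z) := by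
    intro α
    rw [T_cd ok ot c hv₁ hv₂ h₁ h₂ hW (ha.mul_left hU (hχ α)) (hb.mul_left hU (hχ α))]
    ring
  rw [Finset.sum_congr rfl fun α _ => e α, T_cd ok ot c hv₁ hv₂ h₁ h₂ hW ha hb,
    In_cd ok ot hv₁ hv₂ hW hχ h1 ha hb]
  ring

end integral

end Vale.Agent.P088.R2.H960.W
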