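import Vale.Agent.P088.R2.H960.W.Weyl
import Vale.Agent.P088.R2.H644.W.Star

/-!
# Weighted `L²` methods: the master inequality of zone A in the all-star form
-/

open MeasureTheory Set Filter
open scoped ContDiff Topology

noncomputable section

namespace Vale.Agent.P088.R2.H960.W

open Vale.Agent.P088.R2.H961.GW Vale.Agent.P088.R2.H644

variable {E ι κ : Type*} [NormedAddCommGroup E] [NormedSpace ℝ E] [Fintype ι] [Fintype κ]

/-- `(c·w) s(A,A) - 2 (c·A) s(w,A)` at a point. -/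
def tc (σ : Sl E ι) (c : ι → E → ℝ) (W : E → ℝ) (z : E) (A : ι → ℝ) : ℝ :=
  (∑ l, c l z * σ.D l W z) * (∑ i, ∑ j, σ.s i j z * A i * A j) -
    2 * ((∑ l, c l z * A l) * ∑ i, ∑ j, σ.s i j z * σ.D i W z * A j)

/-- `m |X a|²`, the weighted square of the dressed derivatives. -/
def mX (σ : Sl E ι) (m W a : E → ℝ) (z : E) : ℝ := m z * ∑ i, XX σ W a i z ^ 2

/-- The quantum part of the all-star form. -/
def qs (σ : Sl E ι) (τ : Sl E κ) (v₁ v₂ W a b : E → ℝ) (z : E) : ℝ :=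
  -(8 * (Ch.G2 σ W z * a z ^ 2 + 2 * (M2 σ τ W W z * (a z * b z)) + Ch.G2 τ W z * b z ^ 2)) -
  8 * (a z * Ch.X1 σ W (σ.Λ W) a z + b z * Ch.X1 σ W (τ.Λ W) a z +
    a z * Ch.X1 τ W (σ.Λ W) b z + b z * Ch.X1 τ W (τ.Λ W) b z) +
  2 * (σ.Λ (σ.Λ W) z * a z ^ 2 + 2 * (σ.Λ (τ.Λ W) z * (a z * b z)) +
    τ.Λ (τ.Λ W) z * b z ^ 2) +
  4 * (σ.Γ W v₁ z * a z ^ 2 + τ.Γ W v₂ z * b z ^ 2)

section pw

variable {σ : Sl E ι} {τ : Sl E κ} {U : Set E} {θ : E → ℝ} {v v₁ v₂ W f g h a b m : E → ℝ}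
  {c : ι → E → ℝ} {c' : κ → E → ℝ} {z : E}

omit [Fintype ι] in
theorem XX_eq (σ : Sl E ι) (W a : E → ℝ) (i : ι) (z : E) : XX σ W a i z = Ch.XX σ W a z i := rfl

theorem tc_eq (σ : Sl E ι) (c : ι → E → ℝ) (W a : E → ℝ) (z : E) :
    TC σ c W (XX σ W a) z = tc σ c W z (Ch.XX σ W a z) := rfl

theorem tmX (ok : σ.Ok U θ) (hm : Sm U m) (hW : Sm U W) (ha : Te U a) : Te U (mX σ m W a) :=
  (Te.sum ok.op _ fun i _ => (tX ok hW ha i).sq ok.op).mul_left ok.op hm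

theorem tqs (ok : σ.Ok U θ) (ot : τ.Ok U θ) (hv₁ : Sm U v₁) (hv₂ : Sm U v₂) (hW : Sm U W)
    (ha : Te U a) (hb : Te U b) : Te U (qs σ τ v₁ v₂ W a b) := by
  have hU := ok.op
  have ta := ha.sq hU
  have tb := hb.sq hU
  have tab : Te U fun z => a z * b z := ha.mul_right hU hb.sm
  have sL1 := ok.sL hW
  have sL2 := ot.sL hW
  have g1 : Te U fun z => Ch.G2 σ W z * a z ^ 2 := ta.mul_left hU (Ch.sG2 ok hW)
  have g2 : Te U fun z => M2 σ τ W W z * (a z * b z) := tab.mul_left hU (sM2 ok ot hW hW)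
  have g3 : Te U fun z => Ch.G2 τ W z * b z ^ 2 := tb.mul_left hU (Ch.sG2 ot hW)
  have x1 : Te U fun z => a z * Ch.X1 σ W (σ.Λ W) a z := Ch.tX1s ok hW sL1 ha ha.sm
  have x2 : Te U fun z => b z * Ch.X1 σ W (τ.Λ W) a z := Ch.tX1s ok hW sL2 ha hb.sm
  have x3 : Te U fun z => a z * Ch.X1 τ W (σ.Λ W) b z := Ch.tX1s ot hW sL1 hb ha.sm
  have x4 : Te U fun z => b z * Ch.X1 τ W (τ.Λ W) b z := Ch.tX1s ot hW sL2 hb hb.sm
  have l1 : Te U fun z => σ.Λ (σ.Λ W) z * a z ^ 2 := ta.mul_left hU (ok.sL sL1)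
  have l2 : Te U fun z => σ.Λ (τ.Λ W) z * (a z * b z) := tab.mul_left hU (ok.sL sL2)
  have l3 : Te U fun z => τ.Λ (τ.Λ W) z * b z ^ 2 := tb.mul_left hU (ot.sL sL2)
  have p1 : Te U fun z => σ.Γ W v₁ z * a z ^ 2 := ta.mul_left hU (ok.sG hW hv₁)
  have p2 : Te U fun z => τ.Γ W v₂ z * b z ^ 2 := tb.mul_left hU (ot.sG hW hv₂)
  exact (((((g1.add hU (g2.cmul hU 2)).add hU g3).cmul hU 8).neg hU).sub hU
    ((((x1.add hU x2).add hU x3).add hU x4).cmul hU 8)).add hU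
    (((l1.add hU (l2.cmul hU 2)).add hU l3).cmul hU 2) |>.add hU ((p1.add hU p2).cmul hU 4)

end pw

variable [MeasureSpace E] [FiniteDimensional ℝ E] [BorelSpace E]
  [(volume : Measure E).IsAddHaarMeasure]

section integral

variable {σ : Sl E ι} {τ : Sl E κ} {U : Set E} {θ : E → ℝ} {v v₁ v₂ W f g h a b m : E → ℝ}
  {c : ι → E → ℝ} {c' : κ → E → ℝ}

/-- The quantum part, integrated. -/
theorem In_qs (ok : σ.Ok U θ) (ot : τ.Ok U θ) (hv₁ : Sm U v₁) (hv₂ : Sm U v₂) (hW : Sm U W)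
    (ha : Te U a) (hb : Te U b) :
    In U θ (qs σ τ v₁ v₂ W a b) =
      -(8 * (In U θ (fun z => Ch.G2 σ W z * a z ^ 2) +
        2 * In U θ (fun z => M2 σ τ W W z * (a z * b z)) +
        In U θ (fun z => Ch.G2 τ W z * b z ^ 2))) -
      8 * (In U θ (fun z => a z * Ch.X1 σ W (σ.Λ W) a z) +
        In U θ (fun z => b z * Ch.X1 σ W (τ.Λ W) a z) +
        In U θ (fun z => a z * Ch.X1 τ W (σ.Λ W) b z) +
        In U θ (fun z => b z * Ch.X1 τ W (τ.Λ W) b z)) +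
      2 * (In U θ (fun z => σ.Λ (σ.Λ W) z * a z ^ 2) +
        2 * In U θ (fun z => σ.Λ (τ.Λ W) z * (a z * b z)) +
        In U θ (fun z => τ.Λ (τ.Λ W) z * b z ^ 2)) +
      4 * (In U θ (fun z => σ.Γ W v₁ z * a z ^ 2) + In U θ (fun z => τ.Γ W v₂ z * b z ^ 2)) := by
  have hU := ok.op
  have ta := ha.sq hU
  have tb := hb.sq hU
  have tab : Te U fun z => a z * b z := ha.mul_right hU hb.sm
  have sL1 := ok.sL hW
  have sL2 := ot.sL hW
  have g1 : Te U fun z => Ch.G2 σ W z * a z ^ 2 := ta.mul_left hU (Ch.sG2 ok hW)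
  have g2 : Te U fun z => M2 σ τ W W z * (a z * b z) := tab.mul_left hU (sM2 ok ot hW hW)
  have g3 : Te U fun z => Ch.G2 τ W z * b z ^ 2 := tb.mul_left hU (Ch.sG2 ot hW)
  have x1 : Te U fun z => a z * Ch.X1 σ W (σ.Λ W) a z := Ch.tX1s ok hW sL1 ha ha.sm
  have x2 : Te U fun z => b z * Ch.X1 σ W (τ.Λ W) a z := Ch.tX1s ok hW sL2 ha hb.sm
  have x3 : Te U fun z => a z * Ch.X1 τ W (σ.Λ W) b z := Ch.tX1s ot hW sL1 hb ha.sm
  have x4 : Te U fun z => b z * Ch.X1 τ W (τ.Λ W) b z := Ch.tX1s ot hW sL2 hb hb.sm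
  have l1 : Te U fun z => σ.Λ (σ.Λ W) z * a z ^ 2 := ta.mul_left hU (ok.sL sL1)
  have l2 : Te U fun z => σ.Λ (τ.Λ W) z * (a z * b z) := tab.mul_left hU (ok.sL sL2)
  have l3 : Te U fun z => τ.Λ (τ.Λ W) z * b z ^ 2 := tb.mul_left hU (ot.sL sL2)
  have p1 : Te U fun z => σ.Γ W v₁ z * a z ^ 2 := ta.mul_left hU (ok.sG hW hv₁)
  have p2 : Te U fun z => τ.Γ W v₂ z * b z ^ 2 := tb.mul_left hU (ot.sG hW hv₂)
  have G := (g1.add hU (g2.cmul hU 2)).add hU g3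
  have X := ((x1.add hU x2).add hU x3).add hU x4
  have L := (l1.add hU (l2.cmul hU 2)).add hU l3
  have P := p1.add hU p2
  unfold qs
  rw [In_add hU ok.ts ((((G.cmul hU 8).neg hU).sub hU (X.cmul hU 8)).add hU (L.cmul hU 2))
      (P.cmul hU 4),
    In_add hU ok.ts (((G.cmul hU 8).neg hU).sub hU (X.cmul hU 8)) (L.cmul hU 2),
    In_sub hU ok.ts ((G.cmul hU 8).neg hU) (X.cmul hU 8), In_neg, In_cmul, In_cmul, In_cmul,
    In_cmul, In_add hU ok.ts (g1.add hU (g2.cmul hU 2)) g3, In_add hU ok.ts g1 (g2.cmul hU 2),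
    In_cmul, In_add hU ok.ts ((x1.add hU x2).add hU x3) x4, In_add hU ok.ts (x1.add hU x2) x3,
    In_add hU ok.ts x1 x2, In_add hU ok.ts (l1.add hU (l2.cmul hU 2)) l3,
    In_add hU ok.ts l1 (l2.cmul hU 2), In_cmul, In_add hU ok.ts p1 p2]

/-- **The master inequality with a pointwise certificate.**  If
`TH W (A, B) + tc c (A) + tc c' (B) ≥ m (|A|² + |B|²)` on `U`, then `T` dominates
`8 ∫ m (|X a|² + |X b|²)` up to the errors of the fields and the quantum part. -/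
theorem weyl_star (ok : σ.Ok U θ) (ot : τ.Ok U θ) (cm : Cm σ τ U) (hv₁ : Sm U v₁)
    (hv₂ : Sm U v₂) (h₁ : ∀ z ∈ U, ∀ k, τ.D k v₁ z = 0) (h₂ : ∀ z ∈ U, ∀ i, σ.D i v₂ z = 0)
    (hW : Sm U W) (ha : Te U a) (hb : Te U b) (hc : ∀ i, Sm U (c i)) (hc' : ∀ i, Sm U (c' i))
    {κ₀ : ℝ} (hκ : 0 < κ₀) (hm : Sm U m)
    (cert : ∀ z ∈ U, ∀ (A : ι → ℝ) (B : κ → ℝ), m z * ((∑ i, A i ^ 2) + ∑ k, B k ^ 2) ≤
      Ch.TH σ τ W z A B + tc σ c W z A + tc τ c' W z B) :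
    (1 - κ₀) * (In U θ (fun z => σ.P v₁ W a z ^ 2) + In U θ (fun z => τ.P v₂ W b z ^ 2)) +
      (In U θ (fun z => τ.P v₂ W a z ^ 2) + In U θ (fun z => σ.P v₁ W b z ^ 2)) +
      8 * (In U θ (mX σ m W a) + In U θ (mX τ m W b)) + In U θ (qs σ τ v₁ v₂ W a b) +
      16 * (In U θ (fun z => dF σ c W z * a z ^ 2) + In U θ (fun z => dF τ c' W z * b z ^ 2)) +
      8 * (In U θ (eC σ c v₁ W a) + In U θ (eC τ c' v₂ W b)) -
      16 / κ₀ * (In U θ (fun z => cY σ c W a z ^ 2) + In U θ (fun z => cY τ c' W b z ^ 2)) ≤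
      TT σ τ U θ v₁ v₂ W a b := by
  have hU := ok.op
  have e := Ch.tstar ok ot cm hv₁ hv₂ h₁ h₂ hW ha hb
  have q := In_qs ok ot hv₁ hv₂ hW ha hb
  have w1 := weyl ok hv₁ hW ha hc hκ
  have w2 := weyl ot hv₂ hW hb hc' hκ
  have tT := Ch.tHH ok ot hW ha hb
  have t1 := tTC (c := c) ok hc hW fun i => tX ok hW ha i
  have t2 := tTC (c := c') ot hc' hW fun i => tX ot hW hb i
  have e1 : In U θ (fun z => Ch.TH σ τ W z (Ch.XX σ W a z) (Ch.XX τ W b z)) =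
      In U θ (fun z => σ.Hd W a z + 2 * Md σ τ W a b z + τ.Hd W b z) :=
    In_congr hU fun z hz => Ch.TH_XX ok ot hW ha.sm hb.sm hz
  have key : In U θ (mX σ m W a) + In U θ (mX τ m W b) ≤
      In U θ (fun z => Ch.TH σ τ W z (Ch.XX σ W a z) (Ch.XX τ W b z)) +
        In U θ (TC σ c W (XX σ W a)) + In U θ (TC τ c' W (XX τ W b)) := by
    rw [e1, ← In_add hU ok.ts (tmX ok hm hW ha) (tmX ot hm hW hb), ← In_add hU ok.ts tT t1,
      ← In_add hU ok.ts (tT.add hU t1) t2]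
    refine In_mono hU ok.tp ok.ts ((tmX ok hm hW ha).add hU (tmX ot hm hW hb))
      ((tT.add hU t1).add hU t2) fun z hz => ?_
    have h := cert z hz (Ch.XX σ W a z) (Ch.XX τ W b z)
    rw [Ch.TH_XX ok ot hW ha.sm hb.sm hz, mul_add] at h
    exact h
  rw [e]
  linarith

/-- The change from `X` to `Y` with a weight. -/
theorem YX_m (ok : σ.Ok U θ) (hW : Sm U W) (ha : Te U a) (hm : Sm U m) :
    In U θ (fun z => m z * sYY σ W a z) =
      In U θ (fun z => m z * ∑ i, ∑ j, σ.s i j z * XX σ W a i z * XX σ W a j z) -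
      2 * In U θ (fun z => (m z * σ.Λ W z + σ.Γ m W z) * a z ^ 2) := by
  have hU := ok.op
  have e := XY ok hW ha (q := fun i j z => m z * σ.s i j z) (fun i j => hm.mul (ok.ss i j))
    (fun i j z => by rw [ok.sy i j])
  have e1 : ∀ u : ι → E → ℝ, In U θ (fun z => m z * ∑ i, ∑ j, σ.s i j z * u i z * u j z) =
      In U θ (fun z => ∑ i, ∑ j, m z * σ.s i j z * u i z * u j z) := fun u => by
    refine In_congr hU fun z _ => ?_
    simp only [Finset.mul_sum]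
    exact Finset.sum_congr rfl fun i _ => Finset.sum_congr rfl fun j _ => by ring
  have e2 : In U θ (fun z => m z * sYY σ W a z) =
      In U θ (fun z => ∑ i, ∑ j, m z * σ.s i j z * YY σ W a i z * YY σ W a j z) := e1 _
  rw [e2, e1, e]
  have sg : ∀ j, Sm U fun z => ∑ i, m z * σ.s i j z * σ.D i W z := fun j =>
    Sm.sum _ fun i _ => (hm.mul (ok.ss i j)).mul (ok.sD hW i)
  have e3 : In U θ (fun z => (∑ j, (σ.D j (fun z => ∑ i, m z * σ.s i j z * σ.D i W z) z +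
        σ.k j z * ∑ i, m z * σ.s i j z * σ.D i W z)) * a z ^ 2) =
      In U θ (fun z => (m z * σ.Λ W z + σ.Γ m W z) * a z ^ 2) := by
    refine In_congr hU fun z hz => ?_
    congr 1
    have d : ∀ j, σ.D j (fun z => ∑ i, m z * σ.s i j z * σ.D i W z) z =
        ∑ i, (σ.D j m z * σ.s i j z * σ.D i W z + m z * (σ.D j (σ.s i j) z * σ.D i W z) +
          m z * (σ.s i j z * σ.D j (σ.D i W) z)) := by
      intro j
      rw [D_sum σ hU _ (fun i _ => (hm.mul (ok.ss i j)).mul (ok.sD hW i)) j hz]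
      refine Finset.sum_congr rfl fun i _ => ?_
      rw [D_mul σ hU (hm.mul (ok.ss i j)) (ok.sD hW i) j hz, D_mul σ hU hm (ok.ss i j) j hz]
      ring
    have l : m z * σ.Λ W z = ∑ j, ∑ i, m z * (σ.s i j z * (σ.D j (σ.D i W) z +
        σ.k j z * σ.D i W z) + σ.D j (σ.s i j) z * σ.D i W z) := by
      unfold Sl.Λ
      simp only [Finset.mul_sum]
      exact Finset.sum_congr rfl fun j _ => Finset.sum_congr rfl fun i _ => by
        have : σ.s i j = σ.s j i := funext fun z => ok.sy i j z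
        rw [this]
    have g : σ.Γ m W z = ∑ j, ∑ i, σ.D j m z * σ.s i j z * σ.D i W z := by
      unfold Sl.Γ
      exact Finset.sum_congr rfl fun j _ => Finset.sum_congr rfl fun i _ => by
        rw [ok.sy i j]; ring
    rw [l, g]
    simp only [d]
    have tot : ∑ j, (∑ i, (σ.D j m z * σ.s i j z * σ.D i W z +
          m z * (σ.D j (σ.s i j) z * σ.D i W z) + m z * (σ.s i j z * σ.D j (σ.D i W) z)) +
        σ.k j z * ∑ i, m z * σ.s i j z * σ.D i W z) =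
        ∑ j, ∑ i, σ.D j m z * σ.s i j z * σ.D i W z +
        ∑ j, ∑ i, m z * (σ.s i j z * (σ.D j (σ.D i W) z + σ.k j z * σ.D i W z) +
          σ.D j (σ.s i j) z * σ.D i W z) := by
      simp only [Finset.mul_sum, ← Finset.sum_add_distrib]
      exact Finset.sum_congr rfl fun j _ => Finset.sum_congr rfl fun i _ => by ring
    rw [tot]
    ring
  rw [e3]
  ring

end integral

end Vale.Agent.P088.R2.H960.W
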