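import Vale.Agent.P088.R2.H960.W.Mult
import Vale.Agent.P088.R2.H961.W.Hes

/-!
# Weighted `L²` methods: the master inequality of zone A

For a frame field `c` let `TC c (U) = (c·w) s(U,U) - 2 (c·U) s(w,U)`, `w = D W`.  The square of
`P a` dominates `8 ∫ TC c (X a)` up to first order errors.
-/

open MeasureTheory Set Filter
open scoped ContDiff Topology

noncomputable section

namespace Vale.Agent.P088.R2.H960.W

open Vale.Agent.P088.R2.H961.GW

variable {E ι κ : Type*} [NormedAddCommGroup E] [NormedSpace ℝ E] [Fintype ι] [Fintype κ]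

omit [Fintype ι] in
theorem eta_eq (σ : Sl E ι) (i : ι) (z : E) : eta σ i z = σ.η i z := rfl

/-- `c · Y a`. -/
def cY (σ : Sl E ι) (c : ι → E → ℝ) (W a : E → ℝ) (z : E) : ℝ := ∑ l, c l z * YY σ W a l z

/-- `s(Y a, Y a)`. -/
def sYY (σ : Sl E ι) (W a : E → ℝ) (z : E) : ℝ :=
  ∑ i, ∑ j, σ.s i j z * YY σ W a i z * YY σ W a j z

/-- `(c·w) s(U,U) - 2 (c·U) s(w,U)` on a vector `U` of functions. -/
def TC (σ : Sl E ι) (c : ι → E → ℝ) (W : E → ℝ) (u : ι → E → ℝ) (z : E) : ℝ :=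
  (∑ l, c l z * σ.D l W z) * (∑ i, ∑ j, σ.s i j z * u i z * u j z) -
    2 * ((∑ l, c l z * u l z) * ∑ i, ∑ j, σ.s i j z * σ.D i W z * u j z)

/-- The coefficients of `TC`. -/
def qC (σ : Sl E ι) (c : ι → E → ℝ) (W : E → ℝ) (i j : ι) (z : E) : ℝ :=
  (∑ l, c l z * σ.D l W z) * σ.s i j z -
    (c i z * (∑ k, σ.s k j z * σ.D k W z) + (∑ k, σ.s k i z * σ.D k W z) * c j z)

/-- The error density of the multiplier identity. -/
def eC (σ : Sl E ι) (c : ι → E → ℝ) (v W a : E → ℝ) (z : E) : ℝ :=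
  (∑ i, ∑ j, ∑ l, σ.s i j z * σ.D i (c l) z * YY σ W a j z * YY σ W a l z) -
    1 / 2 * ((∑ l, (σ.D l (c l) z + σ.k l z * c l z)) * sYY σ W a z) -
    1 / 2 * (∑ l, ∑ i, ∑ j, c l z * σ.D l (σ.s i j) z * YY σ W a i z * YY σ W a j z) +
    (∑ i, ∑ j, σ.s i j z * eta σ i z * YY σ W a j z) * cY σ c W a z -
    (∑ l, c l z * eta σ l z) * sYY σ W a z - v z * a z * cY σ c W a z

/-- `div (F c)`. -/
def dF (σ : Sl E ι) (c : ι → E → ℝ) (W : E → ℝ) (z : E) : ℝ :=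
  ∑ j, (σ.D j (fun z => σ.F W z * c j z) z + σ.k j z * (σ.F W z * c j z))

section pw

variable {σ : Sl E ι} {U : Set E} {θ : E → ℝ} {v W f g h a b : E → ℝ} {c : ι → E → ℝ} {z : E}

theorem TC_eq (σ : Sl E ι) (c : ι → E → ℝ) (W : E → ℝ) (u : ι → E → ℝ) (z : E) :
    TC σ c W u z = ∑ i, ∑ j, qC σ c W i j z * u i z * u j z := by
  unfold TC qC
  have e1 : ∑ i, ∑ j, σ.s i j z * σ.D i W z * u j z = ∑ j, (∑ k, σ.s k j z * σ.D k W z) * u j z := by
    rw [Finset.sum_comm]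
    exact Finset.sum_congr rfl fun j _ => by rw [Finset.sum_mul]
  have e2 : (∑ l, c l z * u l z) * ∑ j, (∑ k, σ.s k j z * σ.D k W z) * u j z =
      ∑ i, ∑ j, c i z * (∑ k, σ.s k j z * σ.D k W z) * u i z * u j z := by
    rw [Finset.sum_mul_sum]
    exact Finset.sum_congr rfl fun i _ => Finset.sum_congr rfl fun j _ => by ring
  have e3 : (∑ l, c l z * u l z) * ∑ j, (∑ k, σ.s k j z * σ.D k W z) * u j z =
      ∑ i, ∑ j, (∑ k, σ.s k i z * σ.D k W z) * c j z * u i z * u j z := by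
    rw [Finset.sum_mul_sum, Finset.sum_comm]
    exact Finset.sum_congr rfl fun i _ => Finset.sum_congr rfl fun j _ => by ring
  have e4 : 2 * ((∑ l, c l z * u l z) * ∑ j, (∑ k, σ.s k j z * σ.D k W z) * u j z) =
      ∑ i, ∑ j, c i z * (∑ k, σ.s k j z * σ.D k W z) * u i z * u j z +
      ∑ i, ∑ j, (∑ k, σ.s k i z * σ.D k W z) * c j z * u i z * u j z := by
    rw [← e2, ← e3]; ring
  rw [e1, e4, Finset.mul_sum]
  simp only [Finset.mul_sum]
  rw [← Finset.sum_add_distrib, ← Finset.sum_sub_distrib]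
  refine Finset.sum_congr rfl fun i _ => ?_
  rw [← Finset.sum_add_distrib, ← Finset.sum_sub_distrib]
  refine Finset.sum_congr rfl fun j _ => ?_
  ring

theorem qC_symm (ok : σ.Ok U θ) (c : ι → E → ℝ) (W : E → ℝ) (i j : ι) (z : E) :
    qC σ c W i j z = qC σ c W j i z := by
  unfold qC
  rw [ok.sy i j]
  ring

theorem sqC (ok : σ.Ok U θ) (hc : ∀ i, Sm U (c i)) (hW : Sm U W) (i j : ι) :
    Sm U (qC σ c W i j) :=
  ((Sm.sum _ fun l _ => (hc l).mul (ok.sD hW l)).mul (ok.ss i j)).sub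
    (((hc i).mul (Sm.sum _ fun k _ => (ok.ss k j).mul (ok.sD hW k))).add
      ((Sm.sum _ fun k _ => (ok.ss k i).mul (ok.sD hW k)).mul (hc j)))

/-- The contraction of the coefficients with `w`. -/
theorem qC_w (σ : Sl E ι) (c : ι → E → ℝ) (W : E → ℝ) (j : ι) (z : E) :
    ∑ i, qC σ c W i j z * σ.D i W z = -(σ.F W z * c j z) := by
  unfold qC Sl.F Sl.Γ
  have g : ∀ (S T : ℝ) (u x w : ι → ℝ), ∑ i, (S * x i - (u i * T + w i * c j z)) * σ.D i W z =
      S * (∑ i, x i * σ.D i W z) - ((∑ i, u i * σ.D i W z) * T +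
        (∑ i, w i * σ.D i W z) * c j z) := by
    intro S T u x w
    rw [Finset.mul_sum, Finset.sum_mul, Finset.sum_mul, ← Finset.sum_add_distrib,
      ← Finset.sum_sub_distrib]
    exact Finset.sum_congr rfl fun i _ => by ring
  have e1 := g (∑ l, c l z * σ.D l W z) (∑ k, σ.s k j z * σ.D k W z) (fun i => c i z)
    (fun i => σ.s i j z) (fun i => ∑ k, σ.s k i z * σ.D k W z)
  have e2 : ∑ i, (∑ k, σ.s k i z * σ.D k W z) * σ.D i W z =
      ∑ i, ∑ j, σ.s i j z * σ.D i W z * σ.D j W z := by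
    rw [Finset.sum_comm]
    exact Finset.sum_congr rfl fun i _ => by rw [Finset.sum_mul]
  rw [e1, e2]
  ring

/-! ### Pointwise bounds of the errors -/

theorem cY_bd {A₀ : ℝ} (h₀ : ∀ l, |c l z| ≤ A₀) : |cY σ c W a z| ≤ A₀ * ∑ i, |YY σ W a i z| := by
  unfold cY
  rw [Finset.mul_sum]
  refine (Finset.abs_sum_le_sum_abs _ _).trans (Finset.sum_le_sum fun l _ => ?_)
  rw [abs_mul]
  exact mul_le_mul_of_nonneg_right (h₀ l) (abs_nonneg _)

theorem L1_sq (u : ι → ℝ) : (∑ i, |u i|) ^ 2 ≤ Fintype.card ι * ∑ i, u i ^ 2 := by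
  have h := sq_sum_le_card_mul_sum_sq (s := (Finset.univ : Finset ι)) (f := fun i => |u i|)
  simpa only [Finset.card_univ, sq_abs] using h

theorem cY_sq {A₀ : ℝ} (h₀ : ∀ l, |c l z| ≤ A₀) :
    cY σ c W a z ^ 2 ≤ A₀ ^ 2 * (Fintype.card ι * ∑ i, YY σ W a i z ^ 2) := by
  have h := cY_bd (σ := σ) (W := W) (a := a) h₀
  have h1 := L1_sq fun i => YY σ W a i z
  rw [← sq_abs]
  calc |cY σ c W a z| ^ 2 ≤ (A₀ * ∑ i, |YY σ W a i z|) ^ 2 := pow_le_pow_left₀ (abs_nonneg _) h 2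
    _ = A₀ ^ 2 * (∑ i, |YY σ W a i z|) ^ 2 := by ring
    _ ≤ _ := mul_le_mul_of_nonneg_left h1 (sq_nonneg _)

theorem abs_sum2_le {M : ℝ} (m : ι → ι → ℝ) (hm : ∀ i j, |m i j| ≤ M) (x y : ι → ℝ) :
    |∑ i, ∑ j, m i j * x i * y j| ≤ M * ((∑ i, |x i|) * ∑ j, |y j|) := by
  calc |∑ i, ∑ j, m i j * x i * y j| ≤ ∑ i, ∑ j, |m i j * x i * y j| :=
        (Finset.abs_sum_le_sum_abs _ _).trans (Finset.sum_le_sum fun i _ =>
          Finset.abs_sum_le_sum_abs _ _)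
    _ ≤ ∑ i, ∑ j, M * (|x i| * |y j|) := by
        refine Finset.sum_le_sum fun i _ => Finset.sum_le_sum fun j _ => ?_
        rw [abs_mul, abs_mul, mul_assoc]
        exact mul_le_mul_of_nonneg_right (hm i j) (by positivity)
    _ = _ := by
        rw [Finset.sum_mul_sum, Finset.mul_sum]
        exact Finset.sum_congr rfl fun i _ => by rw [Finset.mul_sum]

/-- The bound of the error density. -/
theorem eC_bd {S B A₀ A₁ : ℝ} (hS : ∀ i j, |σ.s i j z| ≤ S) (hB : ∀ l i j, |σ.D l (σ.s i j) z| ≤ B)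
    (hk : ∀ l, |σ.k l z| ≤ B) (he : ∀ l, |eta σ l z| ≤ B) (h₀ : ∀ l, |c l z| ≤ A₀)
    (h₁ : ∀ i l, |σ.D i (c l) z| ≤ A₁) (S0 : 0 ≤ S) (B0 : 0 ≤ B) (A00 : 0 ≤ A₀) (A10 : 0 ≤ A₁) :
    |eC σ c v W a z| ≤ Fintype.card ι ^ 2 * (3 / 2 * S * A₁ + (5 / 2 * S + 1 / 2) * B * A₀) *
      (∑ i, YY σ W a i z ^ 2) + 1 / 2 * A₀ * ((v z * a z) ^ 2 +
        Fintype.card ι * ∑ i, YY σ W a i z ^ 2) := by
  set N : ℝ := (Fintype.card ι : ℝ) with hN
  have N0 : 0 ≤ N := Nat.cast_nonneg _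
  set L : ℝ := ∑ i, |YY σ W a i z| with hL
  have L0 : 0 ≤ L := Finset.sum_nonneg fun i _ => abs_nonneg _
  have hLs : L ^ 2 ≤ N * ∑ i, YY σ W a i z ^ 2 := L1_sq fun i => YY σ W a i z
  have hc := cY_bd (σ := σ) (W := W) (a := a) h₀
  have hss : |sYY σ W a z| ≤ S * L ^ 2 := by
    have := abs_sum2_le (fun i j => σ.s i j z) hS (fun i => YY σ W a i z) fun i => YY σ W a i z
    unfold sYY
    rw [pow_two]
    exact this
  have hcard : ∀ f : ι → ℝ, ∀ M : ℝ, (∀ i, |f i| ≤ M) → |∑ i, f i| ≤ N * M := by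
    intro f M hf
    calc |∑ i, f i| ≤ ∑ i, |f i| := Finset.abs_sum_le_sum_abs _ _
      _ ≤ ∑ _i : ι, M := Finset.sum_le_sum fun i _ => hf i
      _ = N * M := by rw [Finset.sum_const, Finset.card_univ, nsmul_eq_mul]
  have t1 : |∑ i, ∑ j, ∑ l, σ.s i j z * σ.D i (c l) z * YY σ W a j z * YY σ W a l z| ≤
      N * (S * A₁ * L ^ 2) := by
    refine hcard _ _ fun i => ?_
    have := abs_sum2_le (M := S * A₁) (fun j l => σ.s i j z * σ.D i (c l) z) (fun j l => by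
      rw [abs_mul]; exact mul_le_mul (hS i j) (h₁ i l) (abs_nonneg _) S0)
      (fun j => YY σ W a j z) fun l => YY σ W a l z
    rw [pow_two]
    exact this
  have t2 : |(∑ l, (σ.D l (c l) z + σ.k l z * c l z)) * sYY σ W a z| ≤
      (N * (A₁ + B * A₀)) * (S * L ^ 2) := by
    rw [abs_mul]
    refine mul_le_mul (hcard _ _ fun l => ?_) hss (abs_nonneg _) (by positivity)
    refine (abs_add_le _ _).trans (add_le_add (h₁ l l) ?_)
    rw [abs_mul]
    exact mul_le_mul (hk l) (h₀ l) (abs_nonneg _) B0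
  have t3 : |∑ l, ∑ i, ∑ j, c l z * σ.D l (σ.s i j) z * YY σ W a i z * YY σ W a j z| ≤
      N * (A₀ * B * L ^ 2) := by
    refine hcard _ _ fun l => ?_
    have := abs_sum2_le (M := A₀ * B) (fun i j => c l z * σ.D l (σ.s i j) z) (fun i j => by
      rw [abs_mul]; exact mul_le_mul (h₀ l) (hB l i j) (abs_nonneg _) A00)
      (fun j => YY σ W a j z) fun l => YY σ W a l z
    rw [pow_two]
    exact this
  have t4 : |(∑ i, ∑ j, σ.s i j z * eta σ i z * YY σ W a j z) * cY σ c W a z| ≤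
      (S * (N * B * L)) * (A₀ * L) := by
    rw [abs_mul]
    refine mul_le_mul ?_ hc (abs_nonneg _) (by positivity)
    refine (abs_sum2_le (fun i j => σ.s i j z) hS (fun i => eta σ i z)
      fun j => YY σ W a j z).trans ?_
    refine mul_le_mul_of_nonneg_left (mul_le_mul_of_nonneg_right ?_ L0) S0
    calc ∑ i, |eta σ i z| ≤ ∑ _i : ι, B := Finset.sum_le_sum fun i _ => he i
      _ = N * B := by rw [Finset.sum_const, Finset.card_univ, nsmul_eq_mul]
  have t5 : |(∑ l, c l z * eta σ l z) * sYY σ W a z| ≤ (N * (A₀ * B)) * (S * L ^ 2) := by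
    rw [abs_mul]
    refine mul_le_mul (hcard _ _ fun l => ?_) hss (abs_nonneg _) (by positivity)
    rw [abs_mul]
    exact mul_le_mul (h₀ l) (he l) (abs_nonneg _) A00
  have t6 : |v z * a z * cY σ c W a z| ≤ 1 / 2 * A₀ * ((v z * a z) ^ 2 + L ^ 2) := by
    rw [abs_mul]
    calc |v z * a z| * |cY σ c W a z| ≤ |v z * a z| * (A₀ * L) :=
          mul_le_mul_of_nonneg_left hc (abs_nonneg _)
      _ = A₀ * (|v z * a z| * L) := by ring
      _ ≤ A₀ * (1 / 2 * ((v z * a z) ^ 2 + L ^ 2)) := by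
          refine mul_le_mul_of_nonneg_left ?_ A00
          have := sq_abs (v z * a z)
          nlinarith [sq_nonneg (|v z * a z| - L)]
      _ = _ := by ring
  have e : |eC σ c v W a z| ≤
      |∑ i, ∑ j, ∑ l, σ.s i j z * σ.D i (c l) z * YY σ W a j z * YY σ W a l z| +
      1 / 2 * |(∑ l, (σ.D l (c l) z + σ.k l z * c l z)) * sYY σ W a z| +
      1 / 2 * |∑ l, ∑ i, ∑ j, c l z * σ.D l (σ.s i j) z * YY σ W a i z * YY σ W a j z| +
      |(∑ i, ∑ j, σ.s i j z * eta σ i z * YY σ W a j z) * cY σ c W a z| +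
      |(∑ l, c l z * eta σ l z) * sYY σ W a z| + |v z * a z * cY σ c W a z| := by
    unfold eC
    rw [abs_le]
    constructor
    · linarith [neg_abs_le (∑ i, ∑ j, ∑ l, σ.s i j z * σ.D i (c l) z * YY σ W a j z *
          YY σ W a l z), le_abs_self ((∑ l, (σ.D l (c l) z + σ.k l z * c l z)) * sYY σ W a z),
        le_abs_self (∑ l, ∑ i, ∑ j, c l z * σ.D l (σ.s i j) z * YY σ W a i z * YY σ W a j z),
        neg_abs_le ((∑ i, ∑ j, σ.s i j z * eta σ i z * YY σ W a j z) * cY σ c W a z),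
        le_abs_self ((∑ l, c l z * eta σ l z) * sYY σ W a z),
        le_abs_self (v z * a z * cY σ c W a z)]
    · linarith [le_abs_self (∑ i, ∑ j, ∑ l, σ.s i j z * σ.D i (c l) z * YY σ W a j z *
          YY σ W a l z), neg_abs_le ((∑ l, (σ.D l (c l) z + σ.k l z * c l z)) * sYY σ W a z),
        neg_abs_le (∑ l, ∑ i, ∑ j, c l z * σ.D l (σ.s i j) z * YY σ W a i z * YY σ W a j z),
        le_abs_self ((∑ i, ∑ j, σ.s i j z * eta σ i z * YY σ W a j z) * cY σ c W a z),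
        neg_abs_le ((∑ l, c l z * eta σ l z) * sYY σ W a z),
        neg_abs_le (v z * a z * cY σ c W a z)]
  have hT : |eC σ c v W a z| ≤ (N * (3 / 2 * S * A₁ + (5 / 2 * S + 1 / 2) * B * A₀)) * L ^ 2 +
      1 / 2 * A₀ * ((v z * a z) ^ 2 + L ^ 2) := by
    refine e.trans ?_
    have : N * (S * A₁ * L ^ 2) + 1 / 2 * ((N * (A₁ + B * A₀)) * (S * L ^ 2)) +
        1 / 2 * (N * (A₀ * B * L ^ 2)) + (S * (N * B * L)) * (A₀ * L) +
        (N * (A₀ * B)) * (S * L ^ 2) =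
        (N * (3 / 2 * S * A₁ + (5 / 2 * S + 1 / 2) * B * A₀)) * L ^ 2 := by ring
    linarith
  refine hT.trans ?_
  have h1 : (N * (3 / 2 * S * A₁ + (5 / 2 * S + 1 / 2) * B * A₀)) * L ^ 2 ≤
      (N * (3 / 2 * S * A₁ + (5 / 2 * S + 1 / 2) * B * A₀)) *
        (N * ∑ i, YY σ W a i z ^ 2) := mul_le_mul_of_nonneg_left hLs (by positivity)
  have h2 : 1 / 2 * A₀ * ((v z * a z) ^ 2 + L ^ 2) ≤
      1 / 2 * A₀ * ((v z * a z) ^ 2 + N * ∑ i, YY σ W a i z ^ 2) :=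
    mul_le_mul_of_nonneg_left (by linarith) (by positivity)
  have h3 : (N * (3 / 2 * S * A₁ + (5 / 2 * S + 1 / 2) * B * A₀)) *
        (N * ∑ i, YY σ W a i z ^ 2) =
      N ^ 2 * (3 / 2 * S * A₁ + (5 / 2 * S + 1 / 2) * B * A₀) * ∑ i, YY σ W a i z ^ 2 := by ring
  linarith

end pw

section te

variable {σ : Sl E ι} {τ : Sl E κ} {U : Set E} {θ : E → ℝ} {v v₁ v₂ W f g h a b : E → ℝ}
  {c : ι → E → ℝ} {c' : κ → E → ℝ}

theorem tcY (ok : σ.Ok U θ) (hc : ∀ i, Sm U (c i)) (hW : Sm U W) (ha : Te U a) :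
    Te U (cY σ c W a) :=
  Te.sum ok.op _ fun l _ => (tY ok hW ha l).mul_left ok.op (hc l)

theorem tsYY (ok : σ.Ok U θ) (hW : Sm U W) (ha : Te U a) : Te U (sYY σ W a) :=
  Te.sum ok.op _ fun i _ => Te.sum ok.op _ fun j _ =>
    (tY ok hW ha j).mul_left ok.op ((ok.ss i j).mul (tY ok hW ha i).sm)

theorem tTC (ok : σ.Ok U θ) (hc : ∀ i, Sm U (c i)) (hW : Sm U W) {u : ι → E → ℝ}
    (hu : ∀ i, Te U (u i)) : Te U (TC σ c W u) :=
  (((Te.sum ok.op _ fun i _ => Te.sum ok.op _ fun j _ =>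
    (hu j).mul_left ok.op ((ok.ss i j).mul (hu i).sm)).mul_left ok.op
    (Sm.sum _ fun l _ => (hc l).mul (ok.sD hW l)))).sub ok.op
  (((Te.sum ok.op _ fun l _ => (hu l).mul_left ok.op (hc l)).mul_right ok.op
    (Sm.sum _ fun i _ => Sm.sum _ fun j _ =>
      ((ok.ss i j).mul (ok.sD hW i)).mul (hu j).sm)).cmul ok.op 2)

theorem teC (ok : σ.Ok U θ) (hc : ∀ i, Sm U (c i)) (hv : Sm U v) (hW : Sm U W) (ha : Te U a) :
    Te U (eC σ c v W a) := by
  have hU := ok.op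
  have ty := fun i => tY ok hW ha i
  have tc := tcY ok hc hW ha
  have ts := tsYY ok hW ha
  have se : ∀ i, Sm U (eta σ i) := fun i => ok.rs.fd hU _
  have t1 : Te U fun z => ∑ i, ∑ j, ∑ l, σ.s i j z * σ.D i (c l) z * YY σ W a j z *
      YY σ W a l z := Te.sum hU _ fun i _ => Te.sum hU _ fun j _ => Te.sum hU _ fun l _ =>
    (ty l).mul_left hU (((ok.ss i j).mul (ok.sD (hc l) i)).mul (ty j).sm)
  have t2 : Te U fun z => (∑ l, (σ.D l (c l) z + σ.k l z * c l z)) * sYY σ W a z :=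
    ts.mul_left hU (Sm.sum _ fun l _ => (ok.sD (hc l) l).add ((ok.ks l).mul (hc l)))
  have t3 : Te U fun z => ∑ l, ∑ i, ∑ j, c l z * σ.D l (σ.s i j) z * YY σ W a i z *
      YY σ W a j z := Te.sum hU _ fun l _ => Te.sum hU _ fun i _ => Te.sum hU _ fun j _ =>
    (ty j).mul_left hU (((hc l).mul (ok.sD (ok.ss i j) l)).mul (ty i).sm)
  have t4 : Te U fun z => (∑ i, ∑ j, σ.s i j z * eta σ i z * YY σ W a j z) * cY σ c W a z :=
    tc.mul_left hU (Sm.sum _ fun i _ => Sm.sum _ fun j _ =>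
      ((ok.ss i j).mul (se i)).mul (ty j).sm)
  have t5 : Te U fun z => (∑ l, c l z * eta σ l z) * sYY σ W a z :=
    ts.mul_left hU (Sm.sum _ fun l _ => (hc l).mul (se l))
  have t6 : Te U fun z => v z * a z * cY σ c W a z := tc.mul_left hU (hv.mul ha.sm)
  exact ((((t1.sub hU (t2.cmul hU _)).sub hU (t3.cmul hU _)).add hU t4).sub hU t5).sub hU t6

end te

/-! ## Integrals -/

variable [MeasureSpace E] [FiniteDimensional ℝ E] [BorelSpace E]
  [(volume : Measure E).IsAddHaarMeasure]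

section integral

variable {σ : Sl E ι} {τ : Sl E κ} {U : Set E} {θ : E → ℝ} {v v₁ v₂ W f g h a b : E → ℝ}
  {c : ι → E → ℝ} {c' : κ → E → ℝ}

/-- The multiplier identity, in terms of `TC` and `eC`. -/
theorem mult' (ok : σ.Ok U θ) (hv : Sm U v) (hW : Sm U W) (ha : Te U a)
    (hc : ∀ i, Sm U (c i)) :
    In U θ (fun z => σ.P v W a z * cY σ c W a z) =
      -In U θ (TC σ c W (YY σ W a)) - In U θ (eC σ c v W a) := by
  have hU := ok.op
  have t1 := tTC (c := c) ok hc hW fun i => tY ok hW ha i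
  have t2 := teC ok hc hv hW ha
  have e := mult ok hv hW ha hc
  have e0 : In U θ (fun z => σ.P v W a z * cY σ c W a z) =
      In U θ (fun z => σ.P v W a z * ∑ l, c l z * YY σ W a l z) := rfl
  rw [e0, e, sub_eq_add_neg, ← In_neg, ← In_neg, ← In_add hU ok.ts (t1.neg hU) (t2.neg hU)]
  refine In_congr hU fun z _ => ?_
  unfold TC eC sYY cY
  rw [Finset.sum_sub_distrib]
  ring

/-- The change from `Y` to `X`. -/
theorem TC_XY (ok : σ.Ok U θ) (hW : Sm U W) (ha : Te U a) (hc : ∀ i, Sm U (c i)) :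
    In U θ (TC σ c W (XX σ W a)) = In U θ (TC σ c W (YY σ W a)) -
      2 * In U θ (fun z => dF σ c W z * a z ^ 2) := by
  have hU := ok.op
  have ta := ha.sq hU
  have e := XY ok hW ha (q := qC σ c W) (fun i j => sqC ok hc hW i j)
    (fun i j z => qC_symm ok c W i j z)
  have e1 : ∀ u : ι → E → ℝ, In U θ (TC σ c W u) =
      In U θ (fun z => ∑ i, ∑ j, qC σ c W i j z * u i z * u j z) := fun u =>
    In_congr hU fun z _ => TC_eq σ c W u z
  rw [e1, e1, e]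
  have sFc : ∀ j, Sm U fun z => σ.F W z * c j z := fun j => (ok.sF hW).mul (hc j)
  have e2 : In U θ (fun z => (∑ j, (σ.D j (fun z => ∑ i, qC σ c W i j z * σ.D i W z) z +
        σ.k j z * ∑ i, qC σ c W i j z * σ.D i W z)) * a z ^ 2) =
      -In U θ (fun z => dF σ c W z * a z ^ 2) := by
    rw [← In_neg]
    refine In_congr hU fun z hz => ?_
    unfold dF
    rw [← neg_mul, ← Finset.sum_neg_distrib]
    congr 1
    refine Finset.sum_congr rfl fun j _ => ?_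
    rw [D_congr σ hU (g := fun z => -(σ.F W z * c j z)) (fun z _ => qC_w σ c W j z) j hz,
      D_neg σ hU (sFc j) j hz, qC_w σ c W j z]
    ring
  rw [e2]
  ring

/-- **The master inequality for one slot.** -/
theorem weyl (ok : σ.Ok U θ) (hv : Sm U v) (hW : Sm U W) (ha : Te U a)
    (hc : ∀ i, Sm U (c i)) {κ₀ : ℝ} (hκ : 0 < κ₀) :
    8 * In U θ (TC σ c W (XX σ W a)) + 16 * In U θ (fun z => dF σ c W z * a z ^ 2) +
      8 * In U θ (eC σ c v W a) - 16 / κ₀ * In U θ (fun z => cY σ c W a z ^ 2) ≤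
      κ₀ * In U θ (fun z => σ.P v W a z ^ 2) := by
  have hU := ok.op
  have tP := ok.tP hv hW ha
  have tc := tcY ok hc hW ha
  have e1 := mult' ok hv hW ha hc
  have e2 := TC_XY ok hW ha hc
  have h : 0 ≤ In U θ (fun z => κ₀ * (σ.P v W a z ^ 2) + 8 * (σ.P v W a z * cY σ c W a z) +
      16 / κ₀ * (cY σ c W a z ^ 2)) := by
    refine In_nonneg hU ok.tp fun z _ => ?_
    have e : κ₀ * (σ.P v W a z ^ 2) + 8 * (σ.P v W a z * cY σ c W a z) +
      16 / κ₀ * (cY σ c W a z ^ 2) = κ₀ * (σ.P v W a z + 4 / κ₀ * cY σ c W a z) ^ 2 := by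
      field_simp; ring
    rw [e]; positivity
  rw [In_add hU ok.ts (((tP.sq hU).cmul hU κ₀).add hU ((tc.mul_left hU tP.sm).cmul hU 8))
    ((tc.sq hU).cmul hU _), In_add hU ok.ts ((tP.sq hU).cmul hU κ₀)
    ((tc.mul_left hU tP.sm).cmul hU 8), In_cmul, In_cmul, In_cmul, e1] at h
  rw [e2]
  linarith

/-- **The master inequality of zone A.** -/
theorem weyl_T (ok : σ.Ok U θ) (ot : τ.Ok U θ) (cm : Cm σ τ U) (hv₁ : Sm U v₁) (hv₂ : Sm U v₂)
    (h₁ : ∀ z ∈ U, ∀ k, τ.D k v₁ z = 0) (h₂ : ∀ z ∈ U, ∀ i, σ.D i v₂ z = 0) (hW : Sm U W)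
    (ha : Te U a) (hb : Te U b) (hc : ∀ i, Sm U (c i)) (hc' : ∀ i, Sm U (c' i)) {κ₀ : ℝ}
    (hκ : 0 < κ₀) :
    (1 - κ₀) * (In U θ (fun z => σ.P v₁ W a z ^ 2) + In U θ (fun z => τ.P v₂ W b z ^ 2)) +
      (In U θ (fun z => τ.P v₂ W a z ^ 2) + In U θ (fun z => σ.P v₁ W b z ^ 2)) +
      8 * (In U θ (σ.Hd W a) + 2 * In U θ (Md σ τ W a b) + In U θ (τ.Hd W b) +
        In U θ (TC σ c W (XX σ W a)) + In U θ (TC τ c' W (XX τ W b))) +
      4 * In U θ (sk σ τ W a b) +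
      (In U θ (fun z => σ.zz v₁ W z * a z ^ 2) + In U θ (fun z => τ.zz v₂ W z * b z ^ 2) +
        In U θ (fun z => zm σ τ W z * (a z * b z))) +
      16 * (In U θ (fun z => dF σ c W z * a z ^ 2) + In U θ (fun z => dF τ c' W z * b z ^ 2)) +
      8 * (In U θ (eC σ c v₁ W a) + In U θ (eC τ c' v₂ W b)) -
      16 / κ₀ * (In U θ (fun z => cY σ c W a z ^ 2) + In U θ (fun z => cY τ c' W b z ^ 2)) ≤
      TT σ τ U θ v₁ v₂ W a b := by
  have e := tid ok ot cm hv₁ hv₂ h₁ h₂ hW ha hb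
  have w1 := weyl ok hv₁ hW ha hc hκ
  have w2 := weyl ot hv₂ hW hb hc' hκ
  rw [e]
  linarith

end integral

end Vale.Agent.P088.R2.H960.W
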