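import Vale.Agent.P088.R2.H961.W.Tid

/-!
# Weighted `L²` methods: restriction to a smaller open set
-/

open MeasureTheory Set Filter
open scoped ContDiff Topology

noncomputable section

namespace Vale.Agent.P088.R2.H960.W

open Vale.Agent.P088.R2.H961.GW

variable {E ι κ : Type*} [NormedAddCommGroup E] [NormedSpace ℝ E]

section pw

variable {σ : Sl E ι} {τ : Sl E κ} {U U' : Set E} {θ : E → ℝ} {f g : E → ℝ}

theorem Te_up (h : U' ⊆ U) (hf : Te U' f) : Te U f := ⟨hf.1, hf.2.1, hf.2.2.trans h⟩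

theorem Te_down (hf : Te U f) (h : tsupport f ⊆ U') : Te U' f := ⟨hf.1, hf.2.1, h⟩

/-- A test function times a function smooth on `U`, supported in `U'`. -/
theorem Te_cut (hU : IsOpen U) (hf : Te U f) {χ : E → ℝ} (hχ : Sm U χ) (hU' : IsOpen U')
    (h : U' ⊆ U) (S : Set E) (hS : IsClosed S) (hSU : U ∩ S ⊆ U') (h0 : ∀ z ∈ U, z ∉ S → χ z = 0) :
    Te U' fun z => χ z * f z := by
  have hK : IsCompact (tsupport f ∩ S) := hf.cpt.inter_right hS
  have hKU : tsupport f ∩ S ⊆ U' := fun z hz => hSU ⟨hf.2.2 hz.1, hz.2⟩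
  refine te_of hU' hK hKU (((hχ.mul hf.sm)).mono h) ?_
  intro z hz
  by_cases hzf : z ∈ tsupport f
  · have hzS : z ∉ S := fun hs => hz ⟨hzf, hs⟩
    rw [h0 z (hf.2.2 hzf) hzS, zero_mul]
  · rw [hf.zero hzf, mul_zero]

variable [Fintype ι] [Fintype κ]

theorem Ok_mono (ok : σ.Ok U θ) (hU' : IsOpen U') (h : U' ⊆ U) : σ.Ok U' θ where
  op := hU'
  tp z hz := ok.tp z (h hz)
  ts := ok.ts.mono h
  rs := ok.rs.mono h
  ss i j := (ok.ss i j).mono h
  ks i := (ok.ks i).mono h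
  sy := ok.sy
  th z hz := ok.th z (h hz)

omit [Fintype ι] [Fintype κ] in
theorem Cm_mono (c : Cm σ τ U) (hU : IsOpen U) (hU' : IsOpen U') (h : U' ⊆ U)
    (hc : ∀ f, Sm U' f → ∀ z ∈ U', ∀ i k, σ.D i (τ.D k f) z = τ.D k (σ.D i f) z) :
    Cm σ τ U' where
  cc := hc
  s1 z hz := c.s1 z (h hz)
  k1 z hz := c.k1 z (h hz)
  s2 z hz := c.s2 z (h hz)
  k2 z hz := c.k2 z (h hz)

end pw

variable [MeasureSpace E]

/-- The integral does not change. -/
theorem In_res {U U' : Set E} {θ f : E → ℝ} (h : U' ⊆ U) (hU : MeasurableSet U)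
    (hf : ∀ z ∈ U, z ∉ U' → f z = 0) : In U' θ f = In U θ f := by
  unfold In
  refine (setIntegral_eq_of_subset_of_forall_diff_eq_zero hU h fun z hz => ?_).symm
  rw [hf z hz.1 hz.2, mul_zero]

theorem In_res_te {U U' : Set E} {θ f : E → ℝ} (h : U' ⊆ U) (hU : MeasurableSet U)
    (hf : Te U' f) : In U' θ f = In U θ f :=
  In_res h hU fun _ _ hz' => hf.off hz'

end Vale.Agent.P088.R2.H960.W
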