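import Vale.Agent.P088.R2.H961.W.Op

/-!
# Weighted `L²` methods: first order multipliers in the dressed derivatives

`Y_i a = D_i a + a D_i W`, so that `P a = ∑ s_ij (D_i + k_i + D_i W) Y_j a + v a`.  For a frame field
`c` the integral of `P a * ∑ c_l Y_l a` is computed exactly.
-/

open MeasureTheory Set Filter
open scoped ContDiff Topology

noncomputable section

namespace Vale.Agent.P088.R2.H960.W

open Vale.Agent.P088.R2.H961.GW

variable {E ι : Type*} [NormedAddCommGroup E] [NormedSpace ℝ E]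

/-- The derivative of the scale function. -/
def eta (σ : Sl E ι) (i : ι) (z : E) : ℝ := fderiv ℝ σ.ρ z (σ.e i)

/-- `Y_i a = D_i a + a D_i W`. -/
def YY (σ : Sl E ι) (W a : E → ℝ) (i : ι) (z : E) : ℝ := σ.D i a z + a z * σ.D i W z

/-- `X_i a = a D_i W - D_i a`. -/
def XX (σ : Sl E ι) (W a : E → ℝ) (i : ι) (z : E) : ℝ := a z * σ.D i W z - σ.D i a z

section pw

variable {σ : Sl E ι} {U : Set E} {θ : E → ℝ} {v W f g h a b : E → ℝ} {z : E}

/-- The commutator of the derivations. -/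
theorem DD_comm (hU : IsOpen U) (hρ : Sm U σ.ρ) (hf : Sm U f) (i l : ι) (hz : z ∈ U) :
    σ.D i (σ.D l f) z = σ.D l (σ.D i f) z + eta σ i z * σ.D l f z - eta σ l z * σ.D i f z := by
  have h1 : ∀ i l, σ.D i (σ.D l f) z = σ.ρ z * (eta σ i z * fderiv ℝ f z (σ.e l) +
      σ.ρ z * fderiv ℝ (fderiv ℝ f) z (σ.e i) (σ.e l)) := by
    intro i l
    have e1 : ∀ x y : E, fderiv ℝ (fun w => fderiv ℝ f w x) z y =
        fderiv ℝ (fderiv ℝ f) z y x := by
      intro x y
      have hd : DifferentiableAt ℝ (fderiv ℝ f) z := by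
        have h : ContDiffOn ℝ ∞ (fderiv ℝ f) U := hf.fderiv_of_isOpen hU (by norm_num)
        exact ((h z hz).contDiffAt (hU.mem_nhds hz)).differentiableAt (by simp)
      have h2 := hd.hasFDerivAt.clm_apply (hasFDerivAt_const x z)
      rw [h2.fderiv]
      simp
    have e2 : σ.D i (σ.D l f) z = σ.ρ z * fderiv ℝ (fun w => σ.ρ w * fderiv ℝ f w (σ.e l)) z
      (σ.e i) := rfl
    rw [e2, fderiv_fun_mul (hρ.diff hU hz) ((hf.fd hU _).diff hU hz)]
    simp only [_root_.add_apply, _root_.smul_apply, smul_eq_mul, e1]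
    unfold eta
    ring
  have h2 : fderiv ℝ (fderiv ℝ f) z (σ.e i) (σ.e l) = fderiv ℝ (fderiv ℝ f) z (σ.e l) (σ.e i) := by
    have hs : IsSymmSndFDerivAt ℝ f z :=
      (hf.at hU hz).isSymmSndFDerivAt (by
        rw [minSmoothness_of_isRCLikeNormedField]; exact WithTop.coe_le_coe.2 (le_top (a := (2 : ℕ∞))))
    exact hs (σ.e i) (σ.e l)
  rw [h1 i l, h1 l i, h2]
  unfold Sl.D
  ring

variable [Fintype ι]

theorem sY (ok : σ.Ok U θ) (hW : Sm U W) (ha : Sm U a) (i : ι) : Sm U (YY σ W a i) :=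
  (ok.sD ha i).add (ha.mul (ok.sD hW i))

theorem tY (ok : σ.Ok U θ) (hW : Sm U W) (ha : Te U a) (i : ι) : Te U (YY σ W a i) :=
  (ok.tD ha i).add ok.op (ha.mul_right ok.op (ok.sD hW i))

theorem tX (ok : σ.Ok U θ) (hW : Sm U W) (ha : Te U a) (i : ι) : Te U (XX σ W a i) :=
  (ha.mul_right ok.op (ok.sD hW i)).sub ok.op (ok.tD ha i)

theorem D_Y (ok : σ.Ok U θ) (hW : Sm U W) (ha : Sm U a) (i l : ι) (hz : z ∈ U) :
    σ.D i (YY σ W a l) z = σ.D i (σ.D l a) z + σ.D i a z * σ.D l W z +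
      a z * σ.D i (σ.D l W) z := by
  have hU := ok.op
  have e : σ.D i (YY σ W a l) z = σ.D i (fun z => σ.D l a z + a z * σ.D l W z) z := rfl
  rw [e, D_add σ hU (ok.sD ha l) (ha.mul (ok.sD hW l)) i hz,
    D_mul σ hU ha (ok.sD hW l) i hz]
  ring

/-- The commutator of the dressed derivations. -/
theorem Y_comm (ok : σ.Ok U θ) (hW : Sm U W) (ha : Sm U a) (i l : ι) (hz : z ∈ U) :
    σ.D i (YY σ W a l) z = σ.D l (YY σ W a i) z + σ.D l W z * YY σ W a i z -
      σ.D i W z * YY σ W a l z + eta σ i z * YY σ W a l z - eta σ l z * YY σ W a i z := by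
  rw [D_Y ok hW ha i l hz, D_Y ok hW ha l i hz, DD_comm ok.op ok.rs ha i l hz,
    DD_comm ok.op ok.rs hW i l hz]
  unfold YY
  ring

/-- The divergence form of `P`. -/
theorem P_eq (ok : σ.Ok U θ) (v : E → ℝ) (hW : Sm U W) (ha : Sm U a) (hz : z ∈ U) :
    σ.P v W a z = (∑ i, ∑ j, (σ.s i j z * (σ.D i (YY σ W a j) z + σ.k i z * YY σ W a j z +
      σ.D i W z * YY σ W a j z) + σ.D i (σ.s i j) z * YY σ W a j z)) + v z * a z := by
  have e : (∑ i, ∑ j, (σ.s i j z * (σ.D i (YY σ W a j) z + σ.k i z * YY σ W a j z +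
      σ.D i W z * YY σ W a j z) + σ.D i (σ.s i j) z * YY σ W a j z)) = σ.Λ a z + σ.Γ a W z + a z * σ.Λ W z + σ.Γ W a z +
        a z * σ.F W z := by
    unfold Sl.F Sl.Λ Sl.Γ
    simp only [Finset.mul_sum, ← Finset.sum_add_distrib]
    refine Finset.sum_congr rfl fun i _ => Finset.sum_congr rfl fun j _ => ?_
    rw [D_Y ok hW ha i j hz]
    unfold YY
    ring
  rw [e, G_comm ok a W]
  unfold Sl.P Sl.K
  ring

/-- Algebra. -/
theorem alg (s : ι → ι → ℝ) (sy : ∀ i j, s i j = s j i) (y w η k c : ι → ℝ) (dc dy : ι → ι → ℝ)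
    (ds : ι → ι → ι → ℝ) (hy : ∀ i l, dy i l = dy l i + w l * y i - w i * y l + η i * y l -
      η l * y i) :
    (∑ i, ∑ j, (s i j * (dy i j + k i * y j + w i * y j) + ds i i j * y j)) *
        (∑ l, c l * y l) =
      (-(∑ i, ∑ j, ∑ l, s i j * dc i l * y j * y l) +
        1 / 2 * ((∑ l, (dc l l + k l * c l)) * ∑ i, ∑ j, s i j * y i * y j) +
        1 / 2 * (∑ l, ∑ i, ∑ j, c l * ds l i j * y i * y j) -
        (∑ i, ∑ j, s i j * η i * y j) * (∑ l, c l * y l) +
        (∑ l, (c l * η l - c l * w l)) * (∑ i, ∑ j, s i j * y i * y j) +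
        2 * ((∑ i, ∑ j, s i j * w i * y j) * (∑ l, c l * y l))) +
      ((∑ i, ((∑ j, (ds i i j * y j + s i j * dy i j)) * (∑ l, c l * y l) +
          (∑ j, s i j * y j) * (∑ l, (dc i l * y l + c l * dy i l)) +
          k i * ((∑ j, s i j * y j) * ∑ l, c l * y l))) -
        1 / 2 * ∑ l, (dc l l * (∑ i, ∑ j, s i j * y i * y j) +
          c l * (∑ i, ∑ j, (ds l i j * y i * y j + s i j * (dy l i * y j) +
            s i j * (y i * dy l j))) +
          k l * (c l * ∑ i, ∑ j, s i j * y i * y j))) := by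
  set M := ∑ l, c l * y l with hM
  set V : ι → ℝ := fun i => ∑ j, s i j * y j with hV
  set A := ∑ i, ∑ j, s i j * dy i j with hA
  set B := ∑ i, ∑ j, ds i i j * y j with hB
  have h1 : ∑ i, ∑ j, (s i j * (dy i j + k i * y j + w i * y j) + ds i i j * y j) =
      A + ∑ i, k i * V i + ∑ i, w i * V i + B := by
    simp only [hA, hV, hB, Finset.mul_sum, ← Finset.sum_add_distrib]
    exact Finset.sum_congr rfl fun i _ => Finset.sum_congr rfl fun j _ => by ring
  have h2 : ∑ i, ∑ j, ∑ l, s i j * dc i l * y j * y l = ∑ i, V i * ∑ l, dc i l * y l := by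
    simp only [hV, Finset.mul_sum, Finset.sum_mul]
    refine Finset.sum_congr rfl fun i _ => ?_
    rw [Finset.sum_comm]
    exact Finset.sum_congr rfl fun j _ => Finset.sum_congr rfl fun l _ => by ring
  have h3 : ∑ i, ∑ j, s i j * y i * y j = ∑ i, V i * y i := by
    simp only [hV, Finset.sum_mul]
    exact Finset.sum_congr rfl fun i _ => Finset.sum_congr rfl fun j _ => by ring
  have h4 : ∀ q : ι → ℝ, ∑ i, ∑ j, s i j * q i * y j = ∑ i, q i * V i := by
    intro q
    simp only [hV, Finset.mul_sum]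
    exact Finset.sum_congr rfl fun i _ => Finset.sum_congr rfl fun j _ => by ring
  have h5 : ∑ i, ((∑ j, (ds i i j * y j + s i j * dy i j)) * M +
          (∑ j, s i j * y j) * (∑ l, (dc i l * y l + c l * dy i l)) +
          k i * ((∑ j, s i j * y j) * M)) =
      B * M + A * M + ∑ i, V i * ∑ l, dc i l * y l + ∑ i, V i * ∑ l, c l * dy i l +
        (∑ i, k i * V i) * M := by
    have e : ∀ i, (∑ j, (ds i i j * y j + s i j * dy i j)) * M +
          (∑ j, s i j * y j) * (∑ l, (dc i l * y l + c l * dy i l)) +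
          k i * ((∑ j, s i j * y j) * M) = (∑ j, ds i i j * y j) * M + (∑ j, s i j * dy i j) * M +
          V i * (∑ l, dc i l * y l) + V i * (∑ l, c l * dy i l) + k i * V i * M := by
      intro i
      simp only [hV, Finset.sum_add_distrib]
      ring
    rw [Finset.sum_congr rfl fun i _ => e i]
    simp only [Finset.sum_add_distrib, ← Finset.sum_mul]
    rw [hA, hB]
  have h6 : ∑ l, (dc l l * (∑ i, ∑ j, s i j * y i * y j) +
          c l * (∑ i, ∑ j, (ds l i j * y i * y j + s i j * (dy l i * y j) +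
            s i j * (y i * dy l j))) +
          k l * (c l * ∑ i, ∑ j, s i j * y i * y j)) =
      (∑ l, dc l l) * (∑ i, V i * y i) + (∑ l, ∑ i, ∑ j, c l * ds l i j * y i * y j) +
        2 * (∑ l, c l * ∑ i, V i * dy l i) + (∑ l, k l * c l) * (∑ i, V i * y i) := by
    have e1 : ∀ l, ∑ i, ∑ j, s i j * (dy l i * y j) = ∑ i, V i * dy l i := by
      intro l
      simp only [hV, Finset.sum_mul]
      exact Finset.sum_congr rfl fun i _ => Finset.sum_congr rfl fun j _ => by ring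
    have e2 : ∀ l, ∑ i, ∑ j, s i j * (y i * dy l j) = ∑ i, V i * dy l i := by
      intro l
      rw [Finset.sum_comm, ← e1 l]
      exact Finset.sum_congr rfl fun i _ => Finset.sum_congr rfl fun j _ => by
        rw [sy j i]; ring
    have e3 : ∀ l, ∑ i, ∑ j, (ds l i j * y i * y j + s i j * (dy l i * y j) +
            s i j * (y i * dy l j)) = (∑ i, ∑ j, ds l i j * y i * y j) +
            2 * ∑ i, V i * dy l i := by
      intro l
      have : ∑ i, ∑ j, (ds l i j * y i * y j + s i j * (dy l i * y j) +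
            s i j * (y i * dy l j)) = (∑ i, ∑ j, ds l i j * y i * y j) +
            (∑ i, ∑ j, s i j * (dy l i * y j)) + ∑ i, ∑ j, s i j * (y i * dy l j) := by
        simp only [Finset.sum_add_distrib]
      rw [this, e1, e2]
      ring
    have e4 : (∑ l, ∑ i, ∑ j, c l * ds l i j * y i * y j) =
        ∑ l, c l * ∑ i, ∑ j, ds l i j * y i * y j := by
      simp only [Finset.mul_sum]
      exact Finset.sum_congr rfl fun l _ => Finset.sum_congr rfl fun i _ =>
        Finset.sum_congr rfl fun j _ => by ring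
    rw [h3, e4]
    simp only [e3]
    rw [Finset.sum_mul, Finset.sum_mul, Finset.mul_sum, ← Finset.sum_add_distrib,
      ← Finset.sum_add_distrib, ← Finset.sum_add_distrib]
    exact Finset.sum_congr rfl fun l _ => by ring
  have h7 : ∑ i, V i * ∑ l, c l * dy i l = (∑ l, c l * ∑ i, V i * dy l i) +
      (∑ l, c l * w l) * (∑ i, V i * y i) - (∑ i, w i * V i) * M + (∑ i, η i * V i) * M -
      (∑ l, c l * η l) * (∑ i, V i * y i) := by
    have e1 : ∑ i, V i * ∑ l, c l * dy i l = ∑ i, ∑ l, V i * c l * dy i l := by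
      simp only [Finset.mul_sum]
      exact Finset.sum_congr rfl fun i _ => Finset.sum_congr rfl fun l _ => by ring
    have e2 : (∑ l, c l * ∑ i, V i * dy l i) = ∑ i, ∑ l, V i * c l * dy l i := by
      simp only [Finset.mul_sum]
      rw [Finset.sum_comm]
      exact Finset.sum_congr rfl fun i _ => Finset.sum_congr rfl fun l _ => by ring
    have e3 : ∀ p q : ι → ℝ, (∑ l, c l * q l) * (∑ i, V i * p i) =
        ∑ i, ∑ l, V i * c l * (q l * p i) := by
      intro p q
      rw [Finset.sum_mul_sum, Finset.sum_comm]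
      exact Finset.sum_congr rfl fun i _ => Finset.sum_congr rfl fun l _ => by ring
    have e4 : ∀ q : ι → ℝ, (∑ i, q i * V i) * M = ∑ i, ∑ l, V i * c l * (q i * y l) := by
      intro q
      rw [hM, Finset.sum_mul_sum]
      exact Finset.sum_congr rfl fun i _ => Finset.sum_congr rfl fun l _ => by ring
    rw [e1, e2, e3, e3, e4, e4, ← Finset.sum_add_distrib, ← Finset.sum_sub_distrib,
      ← Finset.sum_add_distrib, ← Finset.sum_sub_distrib]
    refine Finset.sum_congr rfl fun i _ => ?_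
    rw [← Finset.sum_add_distrib, ← Finset.sum_sub_distrib,
      ← Finset.sum_add_distrib, ← Finset.sum_sub_distrib]
    refine Finset.sum_congr rfl fun l _ => ?_
    rw [hy i l]
    ring
  have h8 : ∑ l, (c l * η l - c l * w l) = (∑ l, c l * η l) - ∑ l, c l * w l :=
    Finset.sum_sub_distrib _ _
  have h9 : ∑ l, (dc l l + k l * c l) = (∑ l, dc l l) + ∑ l, k l * c l :=
    Finset.sum_add_distrib
  rw [h5, h6, h1, h2, h3, h4 η, h4 w, h7, h8, h9]
  ring

end pw

/-! ## Integrals -/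

variable [Fintype ι] [MeasureSpace E] [FiniteDimensional ℝ E] [BorelSpace E]
  [(volume : Measure E).IsAddHaarMeasure]

section integral

variable {σ : Sl E ι} {U : Set E} {θ : E → ℝ} {v W f g h a b : E → ℝ}

/-- The multiplier identity. -/
theorem mult (ok : σ.Ok U θ) (hv : Sm U v) (hW : Sm U W) (ha : Te U a) {c : ι → E → ℝ}
    (hc : ∀ i, Sm U (c i)) :
    In U θ (fun z => σ.P v W a z * ∑ l, c l z * YY σ W a l z) =
      In U θ (fun z =>
        -(∑ i, ∑ j, ∑ l, σ.s i j z * σ.D i (c l) z * YY σ W a j z * YY σ W a l z) +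
        1 / 2 * ((∑ l, (σ.D l (c l) z + σ.k l z * c l z)) *
          ∑ i, ∑ j, σ.s i j z * YY σ W a i z * YY σ W a j z) +
        1 / 2 * (∑ l, ∑ i, ∑ j, c l z * σ.D l (σ.s i j) z * YY σ W a i z * YY σ W a j z) -
        (∑ i, ∑ j, σ.s i j z * eta σ i z * YY σ W a j z) * (∑ l, c l z * YY σ W a l z) +
        (∑ l, (c l z * eta σ l z - c l z * σ.D l W z)) *
          (∑ i, ∑ j, σ.s i j z * YY σ W a i z * YY σ W a j z) +
        2 * ((∑ i, ∑ j, σ.s i j z * σ.D i W z * YY σ W a j z) * (∑ l, c l z * YY σ W a l z)) +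
        v z * a z * ∑ l, c l z * YY σ W a l z) := by
  have hU := ok.op
  have ty := fun i => tY ok hW ha i
  have tM : Te U fun z => ∑ l, c l z * YY σ W a l z :=
    Te.sum hU _ fun l _ => (ty l).mul_left hU (hc l)
  have tV : ∀ i, Te U fun z => ∑ j, σ.s i j z * YY σ W a j z := fun i =>
    Te.sum hU _ fun j _ => (ty j).mul_left hU (ok.ss i j)
  have tS : Te U fun z => ∑ i, ∑ j, σ.s i j z * YY σ W a i z * YY σ W a j z :=
    Te.sum hU _ fun i _ => Te.sum hU _ fun j _ =>
      (ty j).mul_left hU ((ok.ss i j).mul (ty i).sm)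
  have tVM : ∀ i, Te U fun z => (∑ j, σ.s i j z * YY σ W a j z) * ∑ l, c l z * YY σ W a l z :=
    fun i => (tV i).mul_right hU tM.sm
  have tcS : ∀ i, Te U fun z => c i z * ∑ i, ∑ j, σ.s i j z * YY σ W a i z * YY σ W a j z :=
    fun i => tS.mul_left hU (hc i)
  have i1 : ∀ {F : ι → E → ℝ}, (∀ i, Te U (F i)) →
      Te U (fun z => ∑ i, (σ.D i (F i) z + σ.k i z * F i z)) ∧
        In U θ (fun z => ∑ i, (σ.D i (F i) z + σ.k i z * F i z)) = 0 := by
    intro F hF
    have t : ∀ i ∈ Finset.univ, Te U fun z => σ.D i (F i) z + σ.k i z * F i z := fun i _ =>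
      (ok.tD (hF i) i).add hU ((hF i).mul_left hU (ok.ks i))
    refine ⟨Te.sum hU _ t, ?_⟩
    rw [In_sum hU ok.ts _ t]
    exact Finset.sum_eq_zero fun i _ => ibp ok (hF i) i
  obtain ⟨u1, w1⟩ := i1 tVM
  obtain ⟨u2, w2⟩ := i1 tcS
  have tPM : Te U fun z => σ.P v W a z * ∑ l, c l z * YY σ W a l z :=
    tM.mul_left hU (ok.sP hv hW ha.sm)
  have e0 : In U θ (fun z => σ.P v W a z * ∑ l, c l z * YY σ W a l z) =
      In U θ (fun z => (σ.P v W a z * ∑ l, c l z * YY σ W a l z) -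
        ((∑ i, (σ.D i (fun z => (∑ j, σ.s i j z * YY σ W a j z) *
            ∑ l, c l z * YY σ W a l z) z +
          σ.k i z * ((∑ j, σ.s i j z * YY σ W a j z) * ∑ l, c l z * YY σ W a l z))) -
        1 / 2 * (∑ i, (σ.D i (fun z => c i z * ∑ i, ∑ j, σ.s i j z * YY σ W a i z *
            YY σ W a j z) z +
          σ.k i z * (c i z * ∑ i, ∑ j, σ.s i j z * YY σ W a i z * YY σ W a j z))))) := by
    rw [In_sub hU ok.ts tPM (u1.sub hU (u2.cmul hU (1 / 2))), In_sub hU ok.ts u1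
      (u2.cmul hU (1 / 2)), In_cmul, w1, w2]
    ring
  rw [e0]
  refine In_congr hU fun z hz => ?_
  have d1 : ∀ i, σ.D i (fun z => (∑ j, σ.s i j z * YY σ W a j z) *
      ∑ l, c l z * YY σ W a l z) z =
      (∑ j, (σ.D i (σ.s i j) z * YY σ W a j z + σ.s i j z * σ.D i (YY σ W a j) z)) *
        (∑ l, c l z * YY σ W a l z) +
      (∑ j, σ.s i j z * YY σ W a j z) *
        (∑ l, (σ.D i (c l) z * YY σ W a l z + c l z * σ.D i (YY σ W a l) z)) := by
    intro i
    rw [D_mul σ hU (tV i).sm tM.sm i hz,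
      D_sum σ hU _ (fun j _ => (ok.ss i j).mul (ty j).sm) i hz,
      D_sum σ hU _ (fun l _ => (hc l).mul (ty l).sm) i hz]
    congr 1
    · congr 1
      exact Finset.sum_congr rfl fun j _ => D_mul σ hU (ok.ss i j) (ty j).sm i hz
    · congr 1
      exact Finset.sum_congr rfl fun l _ => D_mul σ hU (hc l) (ty l).sm i hz
  have d2 : ∀ l, σ.D l (fun z => c l z * ∑ i, ∑ j, σ.s i j z * YY σ W a i z *
      YY σ W a j z) z =
      σ.D l (c l) z * (∑ i, ∑ j, σ.s i j z * YY σ W a i z * YY σ W a j z) +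
      c l z * (∑ i, ∑ j, (σ.D l (σ.s i j) z * YY σ W a i z * YY σ W a j z +
        σ.s i j z * (σ.D l (YY σ W a i) z * YY σ W a j z) +
        σ.s i j z * (YY σ W a i z * σ.D l (YY σ W a j) z))) := by
    intro l
    rw [D_mul σ hU (hc l) tS.sm l hz,
      D_sum σ hU _ (fun i _ => Sm.sum _ fun j _ => ((ok.ss i j).mul (ty i).sm).mul (ty j).sm) l hz]
    congr 2
    refine Finset.sum_congr rfl fun i _ => ?_
    rw [D_sum σ hU _ (fun j _ => ((ok.ss i j).mul (ty i).sm).mul (ty j).sm) l hz]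
    refine Finset.sum_congr rfl fun j _ => ?_
    rw [D_mul σ hU ((ok.ss i j).mul (ty i).sm) (ty j).sm l hz,
      D_mul σ hU (ok.ss i j) (ty i).sm l hz]
    ring
  have key := alg (fun i j => σ.s i j z) (fun i j => ok.sy i j z) (fun i => YY σ W a i z)
    (fun i => σ.D i W z) (fun i => eta σ i z) (fun i => σ.k i z) (fun i => c i z)
    (fun i l => σ.D i (c l) z) (fun i l => σ.D i (YY σ W a l) z)
    (fun l i j => σ.D l (σ.s i j) z) (fun i l => Y_comm ok hW ha.sm i l hz)
  have dd1 : (∑ i, (σ.D i (fun z => (∑ j, σ.s i j z * YY σ W a j z) *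
            ∑ l, c l z * YY σ W a l z) z +
          σ.k i z * ((∑ j, σ.s i j z * YY σ W a j z) * ∑ l, c l z * YY σ W a l z))) =
      (∑ i, ((∑ j, (σ.D i (σ.s i j) z * YY σ W a j z + σ.s i j z * σ.D i (YY σ W a j) z)) *
        (∑ l, c l z * YY σ W a l z) +
      (∑ j, σ.s i j z * YY σ W a j z) *
        (∑ l, (σ.D i (c l) z * YY σ W a l z + c l z * σ.D i (YY σ W a l) z)) +
          σ.k i z * ((∑ j, σ.s i j z * YY σ W a j z) * ∑ l, c l z * YY σ W a l z))) :=
    Finset.sum_congr rfl fun i _ => by rw [d1 i]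
  have dd2 : (∑ i, (σ.D i (fun z => c i z * ∑ i, ∑ j, σ.s i j z * YY σ W a i z *
            YY σ W a j z) z +
          σ.k i z * (c i z * ∑ i, ∑ j, σ.s i j z * YY σ W a i z * YY σ W a j z))) =
      (∑ l, (σ.D l (c l) z * (∑ i, ∑ j, σ.s i j z * YY σ W a i z * YY σ W a j z) +
      c l z * (∑ i, ∑ j, (σ.D l (σ.s i j) z * YY σ W a i z * YY σ W a j z +
        σ.s i j z * (σ.D l (YY σ W a i) z * YY σ W a j z) +
        σ.s i j z * (YY σ W a i z * σ.D l (YY σ W a j) z))) +
          σ.k l z * (c l z * ∑ i, ∑ j, σ.s i j z * YY σ W a i z * YY σ W a j z))) :=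
    Finset.sum_congr rfl fun i _ => by rw [d2 i]
  rw [dd1, dd2, P_eq ok v hW ha.sm hz, add_mul, key]
  ring

/-- The two dressed quadratic forms. -/
theorem XY (ok : σ.Ok U θ) (hW : Sm U W) (ha : Te U a) {q : ι → ι → E → ℝ}
    (hq : ∀ i j, Sm U (q i j)) (qs : ∀ i j z, q i j z = q j i z) :
    In U θ (fun z => ∑ i, ∑ j, q i j z * XX σ W a i z * XX σ W a j z) =
      In U θ (fun z => ∑ i, ∑ j, q i j z * YY σ W a i z * YY σ W a j z) +
      2 * In U θ (fun z => (∑ j, (σ.D j (fun z => ∑ i, q i j z * σ.D i W z) z +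
        σ.k j z * ∑ i, q i j z * σ.D i W z)) * a z ^ 2) := by
  have hU := ok.op
  have ty := fun i => tY ok hW ha i
  have tx := fun i => tX ok hW ha i
  have ta := ha.sq hU
  have sg : ∀ j, Sm U fun z => ∑ i, q i j z * σ.D i W z := fun j =>
    Sm.sum _ fun i _ => (hq i j).mul (ok.sD hW i)
  have tg : ∀ j, Te U fun z => (∑ i, q i j z * σ.D i W z) * a z ^ 2 := fun j =>
    ta.mul_left hU (sg j)
  have tXX : Te U fun z => ∑ i, ∑ j, q i j z * XX σ W a i z * XX σ W a j z :=
    Te.sum hU _ fun i _ => Te.sum hU _ fun j _ => (tx j).mul_left hU ((hq i j).mul (tx i).sm)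
  have tYY : Te U fun z => ∑ i, ∑ j, q i j z * YY σ W a i z * YY σ W a j z :=
    Te.sum hU _ fun i _ => Te.sum hU _ fun j _ => (ty j).mul_left hU ((hq i j).mul (ty i).sm)
  have t3 : Te U fun z => (∑ j, (σ.D j (fun z => ∑ i, q i j z * σ.D i W z) z +
        σ.k j z * ∑ i, q i j z * σ.D i W z)) * a z ^ 2 :=
    ta.mul_left hU (Sm.sum _ fun j _ => (ok.sD (sg j) j).add ((ok.ks j).mul (sg j)))
  have t4 : ∀ j ∈ Finset.univ, Te U fun z =>
      σ.D j (fun z => (∑ i, q i j z * σ.D i W z) * a z ^ 2) z +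
        σ.k j z * ((∑ i, q i j z * σ.D i W z) * a z ^ 2) := fun j _ =>
    (ok.tD (tg j) j).add hU ((tg j).mul_left hU (ok.ks j))
  have e1 : In U θ (fun z => ∑ j, (σ.D j (fun z => (∑ i, q i j z * σ.D i W z) * a z ^ 2) z +
        σ.k j z * ((∑ i, q i j z * σ.D i W z) * a z ^ 2))) = 0 := by
    rw [In_sum hU ok.ts _ t4]
    exact Finset.sum_eq_zero fun j _ => ibp ok (tg j) j
  have t5 : Te U fun z => ∑ j, (σ.D j (fun z => (∑ i, q i j z * σ.D i W z) * a z ^ 2) z +
        σ.k j z * ((∑ i, q i j z * σ.D i W z) * a z ^ 2)) := Te.sum hU _ t4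
  have e2 : In U θ (fun z => ∑ i, ∑ j, q i j z * XX σ W a i z * XX σ W a j z) =
      In U θ (fun z => ((∑ i, ∑ j, q i j z * YY σ W a i z * YY σ W a j z) +
      2 * ((∑ j, (σ.D j (fun z => ∑ i, q i j z * σ.D i W z) z +
        σ.k j z * ∑ i, q i j z * σ.D i W z)) * a z ^ 2)) -
      2 * ∑ j, (σ.D j (fun z => (∑ i, q i j z * σ.D i W z) * a z ^ 2) z +
        σ.k j z * ((∑ i, q i j z * σ.D i W z) * a z ^ 2))) := by
    refine In_congr hU fun z hz => ?_
    have d : ∀ j, σ.D j (fun z => (∑ i, q i j z * σ.D i W z) * a z ^ 2) z =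
        σ.D j (fun z => ∑ i, q i j z * σ.D i W z) z * a z ^ 2 +
          (∑ i, q i j z * σ.D i W z) * (2 * a z * σ.D j a z) := by
      intro j
      rw [D_mul σ hU (sg j) ta.sm j hz, D_sq σ hU ha.sm j hz]
    have s1 : ∑ i, ∑ j, q i j z * XX σ W a i z * XX σ W a j z =
        (∑ i, ∑ j, q i j z * YY σ W a i z * YY σ W a j z) -
          (∑ i, ∑ j, q i j z * σ.D i W z * (2 * a z * σ.D j a z)) -
          (∑ i, ∑ j, q i j z * σ.D j W z * (2 * a z * σ.D i a z)) := by
      simp only [← Finset.sum_sub_distrib]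
      refine Finset.sum_congr rfl fun i _ => Finset.sum_congr rfl fun j _ => ?_
      unfold XX YY
      ring
    have s2 : (∑ i, ∑ j, q i j z * σ.D j W z * (2 * a z * σ.D i a z)) =
        ∑ i, ∑ j, q i j z * σ.D i W z * (2 * a z * σ.D j a z) := by
      rw [Finset.sum_comm]
      exact Finset.sum_congr rfl fun i _ => Finset.sum_congr rfl fun j _ => by rw [qs j i]
    have s3 : (∑ i, ∑ j, q i j z * σ.D i W z * (2 * a z * σ.D j a z)) =
        ∑ j, (∑ i, q i j z * σ.D i W z) * (2 * a z * σ.D j a z) := by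
      rw [Finset.sum_comm]
      exact Finset.sum_congr rfl fun j _ => by rw [Finset.sum_mul]
    have s4 : ∑ j, (σ.D j (fun z => (∑ i, q i j z * σ.D i W z) * a z ^ 2) z +
        σ.k j z * ((∑ i, q i j z * σ.D i W z) * a z ^ 2)) =
        (∑ j, (σ.D j (fun z => ∑ i, q i j z * σ.D i W z) z +
        σ.k j z * ∑ i, q i j z * σ.D i W z)) * a z ^ 2 +
        ∑ j, (∑ i, q i j z * σ.D i W z) * (2 * a z * σ.D j a z) := by
      rw [Finset.sum_mul, ← Finset.sum_add_distrib]
      exact Finset.sum_congr rfl fun j _ => by rw [d j]; ring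
    rw [s1, s2, s3, s4]
    ring
  rw [e2, In_sub hU ok.ts (tYY.add hU (t3.cmul hU 2)) (t5.cmul hU 2),
    In_add hU ok.ts tYY (t3.cmul hU 2), In_cmul, In_cmul, e1]
  ring

end integral

end Vale.Agent.P088.R2.H960.W
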